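import Vale.Agent.P327.Comp2

namespace Vale.Agent.P327

open Filter Set

/-- Cylinders. -/
def Cyl (u : B) (L : ℕ) : Set B := {y | ∀ i < L, y i = u i}

/-- A string as a point. -/
def ofL (l : List ℕ) : B := fun i => l.getD i 0

theorem mg_mono {s t : Set B} (hs : IsMeagre s) (h : ∀ y ∈ t, y ∈ s) : IsMeagre t :=
  IsMeagre.mono h hs

theorem self_mem_cyl (u : B) (L : ℕ) : u ∈ Cyl u L := fun _ _ => rfl

theorem cyl_subset {u u' : B} {L L' : ℕ} (h : u' ∈ Cyl u L) (hL : L ≤ L') :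
    Cyl u' L' ⊆ Cyl u L := fun _ hy i hi => (hy i (by omega)).trans (h i hi)

theorem cyl_ofL (u : B) (L : ℕ) : Cyl (ofL (pre u L)) (pre u L).length = Cyl u L := by
  ext y
  simp only [Cyl, pre_length, mem_ofPred_eq, ofL]
  exact forall₂_congr fun i hi => by rw [pre_getD u hi]

theorem isOpen_cyl (u : B) (L : ℕ) : IsOpen (Cyl u L) :=
  PiNat.isOpen_cylinder (fun _ => ℕ) u L

theorem exists_cyl {U : Set B} (hU : IsOpen U) {u : B} (hu : u ∈ U) (L0 : ℕ) :
    ∃ L, L0 ≤ L ∧ Cyl u L ⊆ U := by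
  obtain ⟨v, ⟨x, n, rfl⟩, h1, h2⟩ :=
    (PiNat.isTopologicalBasis_cylinders (fun _ : ℕ => ℕ)).exists_subset_of_mem_open hu hU
  exact ⟨max L0 n, le_max_left _ _, (cyl_subset (u := x) h1 (le_max_right _ _)).trans h2⟩

theorem cyl_not_meagre (u : B) (L : ℕ) : ¬ IsMeagre (Cyl u L) :=
  not_isMeagre_of_isOpen (isOpen_cyl u L) ⟨u, self_mem_cyl u L⟩

theorem meagre_of_avoid {S : Set B}
    (h : ∀ u L, ∃ u' ∈ Cyl u L, ∃ L', ∀ y ∈ Cyl u' L', y ∉ S) : IsMeagre S := by
  have : interior Sᶜ ∈ residual B := by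
    refine residual_of_dense_open isOpen_interior ?_
    rw [dense_iff_inter_open]
    rintro U hU ⟨u, hu⟩
    obtain ⟨L, -, hL⟩ := exists_cyl hU hu 0
    obtain ⟨u', h1, L', h2⟩ := h u L
    exact ⟨u', hL h1, interior_maximal h2 (isOpen_cyl u' L') (self_mem_cyl _ _)⟩
  exact mem_of_superset this interior_subset

theorem meagre_singleton (a : B) : IsMeagre ({a} : Set B) :=
  meagre_of_avoid fun u L => ⟨fun i => if i < L then u i else a i + 1,
    fun i hi => by simp [hi], L + 1, fun y hy e => by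
      have := hy L (by omega)
      rw [mem_singleton_iff.1 e] at this
      simp at this⟩

theorem meagre_of_countable {S : Set B} (h : S.Countable) : IsMeagre S := by
  rw [← biUnion_of_singleton S]
  exact isMeagre_biUnion h fun a _ => meagre_singleton a

theorem countable_red (c : B) : {a | Red a c}.Countable := by
  have : {a | Red a c} ⊆ ⋃ Θ : Fn, {a | Cmp Θ.1 c a} := fun a ha => by
    obtain ⟨Θ, h⟩ := Red.cmp ha
    exact mem_iUnion.2 ⟨Θ, h⟩
  refine (countable_iUnion fun Θ => ?_).mono this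
  exact Set.Subsingleton.countable fun a ha b hb => Cmp.unique Θ.2.2 ha hb

theorem meagre_cone {y z : B} (h : ¬ Red z y) : IsMeagre {t | Red z (J y t)} := by
  have : {t | Red z (J y t)} ⊆ ⋃ Θ : Fn, {t | Cmp Θ.1 (J y t) z} := fun a ha => by
    obtain ⟨Θ, h⟩ := Red.cmp ha
    exact mem_iUnion.2 ⟨Θ, h⟩
  refine IsMeagre.mono this (isMeagre_iUnion fun Θ => meagre_of_avoid fun u L => ?_)
  by_contra hc
  push Not at hc
  exact h (red_of_dense Θ (u := u) (L := L) fun u' hu' L' => hc u' hu' L')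

/-- Everywhere nonmeagre in a cylinder. -/
def ENM (S : Set B) (u : B) (L : ℕ) : Prop := ∀ u' ∈ Cyl u L, ∀ L', ¬ IsMeagre (S ∩ Cyl u' L')

theorem localize {S : Set B} (h : ¬ IsMeagre S) : ∃ l : List ℕ, ENM S (ofL l) l.length := by
  by_contra hc
  simp only [ENM] at hc
  push Not at hc
  apply h
  have h1 : IsMeagre (⋃ l : {l : List ℕ // IsMeagre (S ∩ Cyl (ofL l) l.length)},
      S ∩ Cyl (ofL l.1) l.1.length) := isMeagre_iUnion fun l => l.2
  have h2 : IsMeagre (⋃ l : {l : List ℕ // IsMeagre (S ∩ Cyl (ofL l) l.length)},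
      Cyl (ofL l.1) l.1.length)ᶜ := by
    refine meagre_of_avoid fun u L => ?_
    obtain ⟨u', h3, L', h4⟩ := hc (pre u L)
    rw [cyl_ofL] at h3
    refine ⟨u', h3, L', fun y hy hn => hn (mem_iUnion.2 ⟨⟨pre u' L', ?_⟩, ?_⟩)⟩
    · rwa [cyl_ofL]
    · rwa [cyl_ofL]
  refine IsMeagre.mono (fun y hy => ?_) (h1.union h2)
  by_cases hy' : y ∈ ⋃ l : {l : List ℕ // IsMeagre (S ∩ Cyl (ofL l) l.length)},
      Cyl (ofL l.1) l.1.length
  · obtain ⟨l, hl⟩ := mem_iUnion.1 hy'
    exact Or.inl (mem_iUnion.2 ⟨l, hy, hl⟩)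
  · exact Or.inr hy'

theorem baire_prop {M : Set B} (hM : MeasurableSet M) {u : B} {L : ℕ}
    (h : ¬ IsMeagre (M ∩ Cyl u L)) :
    ∃ u' ∈ Cyl u L, ∃ L', L ≤ L' ∧ IsMeagre (Cyl u' L' \ M) := by
  obtain ⟨U, hU, e⟩ := hM.residualEq_isOpen
  have e' : IsMeagre {y | ¬ (y ∈ M ↔ y ∈ U)} := by
    unfold IsMeagre
    filter_upwards [e] with y hy
    simp only [mem_compl_iff, mem_ofPred_eq, not_not]
    exact eq_iff_iff.1 hy
  have : ∃ u' ∈ Cyl u L, u' ∈ U := by
    by_contra hc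
    push Not at hc
    exact h (mg_mono e' (fun y hy e2 => hc y hy.2 (e2.1 hy.1)))
  obtain ⟨u', h1, h2⟩ := this
  obtain ⟨L', h3, h4⟩ := exists_cyl hU h2 L
  exact ⟨u', h1, L', h3, mg_mono e' (fun y hy e2 => hy.2 (e2.2 (h4 hy.1)))⟩

theorem ENM.comeagre {S M : Set B} {u : B} {L : ℕ} (h : ENM S u L) (hM : MeasurableSet M)
    (hS : S ⊆ M) : IsMeagre (Cyl u L \ M) := by
  by_contra hc
  obtain ⟨u', h1, L', -, h2⟩ := baire_prop hM.compl (u := u) (L := L)
    (fun h' => hc (mg_mono h' (fun y hy => ⟨hy.2, hy.1⟩)))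
  exact h u' h1 L' (mg_mono h2 (fun y hy => ⟨hy.2, fun h3 => h3 (hS hy.1)⟩))

theorem meagre_preimage {f g : B → B} (hf : Continuous f) (hg : Continuous g)
    (h1 : Function.LeftInverse g f) (h2 : Function.RightInverse g f) {S : Set B}
    (hS : IsMeagre S) : IsMeagre (f ⁻¹' S) :=
  IsMeagre.preimage_of_isOpenMap hf (IsOpenMap.of_inverse hg h2 h1) hS

theorem exists_not_meagre {ι : Type*} [Countable ι] {S : Set B} (hS : ¬ IsMeagre S)
    (P : ι → B → Prop) (h : ∀ a ∈ S, ∃ i, P i a) : ∃ i, ¬ IsMeagre {a | a ∈ S ∧ P i a} := by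
  by_contra hc
  push Not at hc
  refine hS (IsMeagre.mono (fun a ha => ?_) (isMeagre_iUnion hc))
  obtain ⟨i, hi⟩ := h a ha
  exact mem_iUnion.2 ⟨i, ha, hi⟩

theorem exists_mem_not_mem {S M : Set B} (hS : ¬ IsMeagre S) (hM : IsMeagre M) :
    ∃ a ∈ S, a ∉ M := by
  by_contra hc
  push Not at hc
  exact hS (IsMeagre.mono hc hM)

theorem measurable_pre {u v : B → B} (hu : Measurable u) (hv : Measurable v)
    (P : List ℕ → ℕ → Prop) (s n : ℕ) : MeasurableSet {y | P (pre (u y) s) (v y n)} := by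
  have hm : Measurable (fun y => ((fun i : Fin s => u y i), v y n)) :=
    (measurable_pi_lambda _ fun i => (measurable_pi_apply _).comp hu).prodMk
      ((measurable_pi_apply _).comp hv)
  have := hm (MeasurableSet.of_discrete (s := {p : (Fin s → ℕ) × ℕ |
    P (pre (fun i => if h : i < s then p.1 ⟨i, h⟩ else 0) s) p.2}))
  convert this using 1
  ext y
  simp only [mem_ofPred_eq, mem_preimage]
  rw [pre_congr (O := u y) (O' := fun i => if h : i < s then u y (⟨i, h⟩ : Fin s) else 0)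
    fun i hi => by simp [hi]]

theorem measurable_cmp {u v : B → B} (hu : Measurable u) (hv : Measurable v)
    (Θ : List ℕ → List ℕ) : MeasurableSet {y | Cmp Θ (u y) (v y)} := by
  simp only [Cmp, ofPred_forall, ofPred_exists]
  exact MeasurableSet.iInter fun n => MeasurableSet.iUnion fun s =>
    measurable_pre hu hv (fun l m => (Θ l)[n]? = some m) s n

theorem measurable_J {u v : B → B} (hu : Measurable u) (hv : Measurable v) :
    Measurable fun y => J (u y) (v y) :=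
  measurable_pi_lambda _ fun i =>
    (Measurable.of_discrete (f := fun p : ℕ × ℕ => Nat.pair p.1 p.2)).comp
      (((measurable_pi_apply i).comp hu).prodMk ((measurable_pi_apply i).comp hv))

end Vale.Agent.P327
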