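import Mathlib

namespace Vale.Agent.P327

open Filter

/-- Baire space. -/
abbrev B := ℕ → ℕ

/-- Turing reducibility of total functions. -/
def Red (f O : B) : Prop := Nat.RecursiveIn {(O : ℕ →. ℕ)} (f : ℕ →. ℕ)

theorem Red.refl (f : B) : Red f f := Nat.RecursiveIn.oracle _ (by simp)

theorem Red.trans {f g h : B} (h1 : Red f g) (h2 : Red g h) : Red f h :=
  Nat.RecursiveIn.subst h1 (by
    intro u hu
    rw [Set.mem_singleton_iff.mp hu]; exact h2)

theorem Red.of_eq {f g O : B} (h : Red f O) (e : ∀ n, f n = g n) : Red g O :=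
  (funext e : f = g) ▸ h

theorem Red.of_computable {f : B} (O : B) (h : Computable f) : Red f O :=
  Nat.Partrec.recursiveIn (Partrec.nat_iff.1 h)

theorem Red.comp {f g O : B} (hf : Red f O) (hg : Red g O) : Red (fun n => f (g n)) O :=
  (Nat.RecursiveIn.comp hf hg).of_eq (fun n => Part.bind_some _ _)

/-- The join. -/
def J (f g : B) : B := fun n => Nat.pair (f n) (g n)

theorem Red.pair {f g O : B} (hf : Red f O) (hg : Red g O) : Red (J f g) O :=
  (Nat.RecursiveIn.pair hf hg).of_eq (fun n => by simp [J, Seq.seq])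

theorem Red.prec {f h O : B} (hf : Red f O) (hh : Red h O) :
    Red (fun p => Nat.rec (f p.unpair.1)
      (fun y IH => h (Nat.pair p.unpair.1 (Nat.pair y IH))) p.unpair.2) O :=
  (Nat.RecursiveIn.prec hf hh).of_eq (fun p => by
    simp only [PFun.coe_val]
    generalize p.unpair.2 = n
    induction n with
    | zero => rfl
    | succ n ih =>
      simp only [ih]
      exact Part.bind_some _ _)

theorem Red.rfind {h O : B} (hh : Red h O) (ex : ∀ a, ∃ n, h (Nat.pair a n) = 0) :
    Red (fun a => Nat.find (ex a)) O :=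
  (Nat.RecursiveIn.rfind hh).of_eq_tot (fun a => by
    refine Nat.mem_rfind.2 ⟨?_, fun {m} hm => ?_⟩
    · simpa using Nat.find_spec (ex a)
    · simpa using Nat.find_min (ex a) hm)

theorem red_left (f g : B) : Red f (J f g) :=
  ((Red.of_computable _ (Computable.fst.comp Computable.unpair)).comp (Red.refl (J f g))).of_eq
    (fun n => by simp [J])

theorem red_right (f g : B) : Red g (J f g) :=
  ((Red.of_computable _ (Computable.snd.comp Computable.unpair)).comp (Red.refl (J f g))).of_eq
    (fun n => by simp [J])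

theorem Red.jl {f g h : B} (H : Red f g) : Red f (J g h) := H.trans (red_left _ _)
theorem Red.jr {f g h : B} (H : Red f h) : Red f (J g h) := H.trans (red_right _ _)

/-- Initial segment. -/
def pre (O : B) (s : ℕ) : List ℕ := (List.range s).map O

@[simp] theorem pre_length (O : B) (s : ℕ) : (pre O s).length = s := by simp [pre]

theorem pre_succ (O : B) (s : ℕ) : pre O (s + 1) = pre O s ++ [O s] := by
  simp [pre, List.range_succ]

theorem pre_get? (O : B) (s n : ℕ) : (pre O s)[n]? = if n < s then some (O n) else none := by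
  by_cases h : n < s
  · simp [pre, h]
  · simp [pre, h]

theorem pre_getD (O : B) {s n : ℕ} (h : n < s) : (pre O s).getD n 0 = O n := by
  rw [List.getD_eq_getElem?_getD, pre_get?, if_pos h]; rfl

theorem pre_congr {O O' : B} {s : ℕ} (h : ∀ i < s, O i = O' i) : pre O s = pre O' s := by
  apply List.ext_getElem?
  intro n
  rw [pre_get?, pre_get?]
  split_ifs with hn
  · rw [h n hn]
  · rfl

theorem pre_take (O : B) {s k : ℕ} (h : k ≤ s) : (pre O s).take k = pre O k := by
  apply List.ext_getElem?
  intro n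
  rw [List.getElem?_take, pre_get?, pre_get?]
  split_ifs <;> first | rfl | omega

theorem pre_isPrefix (O : B) {s k : ℕ} (h : k ≤ s) : pre O k <+: pre O s := by
  rw [← pre_take O h]; exact List.take_prefix _ _

theorem red_pre (O : B) : Red (fun s => Encodable.encode (pre O s)) O := by
  have c1 : Computable (fun q : ℕ => Encodable.encode
      (Denumerable.ofNat (List ℕ) q.unpair.1.unpair.2.unpair.2 ++ [q.unpair.2])) := by
    apply Primrec.to_comp
    refine Primrec.encode.comp (Primrec.list_concat.comp ((Primrec.ofNat (List ℕ)).comp ?_) ?_)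
    · exact Primrec.snd.comp (Primrec.unpair.comp (Primrec.snd.comp (Primrec.unpair.comp
        (Primrec.fst.comp Primrec.unpair))))
    · exact Primrec.snd.comp Primrec.unpair
  have c2 : Computable (fun q : ℕ => q.unpair.2.unpair.1) :=
    (Primrec.fst.comp (Primrec.unpair.comp (Primrec.snd.comp Primrec.unpair))).to_comp
  have hh : Red (fun q => Encodable.encode
      (Denumerable.ofNat (List ℕ) q.unpair.2.unpair.2 ++ [O q.unpair.2.unpair.1])) O :=
    ((Red.of_computable O c1).comp ((Red.of_computable O Computable.id).pair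
      ((Red.refl O).comp (Red.of_computable O c2)))).of_eq (fun n => by simp [J])
  have h0 : Red (fun _ => Encodable.encode ([] : List ℕ)) O :=
    Red.of_computable O (Computable.const _)
  have c3 : Computable (fun s : ℕ => Nat.pair 0 s) :=
    (Primrec₂.natPair.comp (Primrec.const 0) Primrec.id).to_comp
  refine ((h0.prec hh).comp (Red.of_computable O c3)).of_eq (fun s => ?_)
  simp only [Nat.unpair_pair]
  induction s with
  | zero => rfl
  | succ s ih => simp only [ih, pre_succ, Denumerable.ofNat_encode]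

theorem red_tt {φ : ℕ → List ℕ → ℕ} {b O : B} (hφ : Computable₂ φ) (hb : Red b O) :
    Red (fun n => φ n (pre O (b n))) O := by
  have c1 : Computable (fun q : ℕ => φ q.unpair.1 (Denumerable.ofNat (List ℕ) q.unpair.2)) :=
    hφ.comp (Computable.fst.comp Computable.unpair)
      ((Computable.ofNat (List ℕ)).comp (Computable.snd.comp Computable.unpair))
  exact ((Red.of_computable O c1).comp ((Red.of_computable O Computable.id).pair
    ((red_pre O).comp hb))).of_eq (fun n => by simp [J])

/-- A sound and complete search procedure computes. -/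
theorem red_search {θ : List ℕ → ℕ → Option ℕ} {f O : B} (hθ : Computable₂ θ)
    (hs : ∀ s n v, θ (pre O s) n = some v → v = f n) (hc : ∀ n, ∃ s v, θ (pre O s) n = some v) :
    Red f O := by
  have c1 : Computable₂ (fun (q : ℕ) (l : List ℕ) =>
      (Option.casesOn (θ l q.unpair.1) 1 (fun _ => 0) : ℕ)) :=
    Computable.option_casesOn (hθ.comp Computable.snd
      (Computable.fst.comp (Computable.unpair.comp Computable.fst))) (Computable.const 1)
      (Computable.const 0).to₂
  have h1 := red_tt c1 (Red.of_computable O (Computable.snd.comp Computable.unpair))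
  have ex : ∀ a, ∃ n, (fun q : ℕ =>
      (Option.casesOn (θ (pre O q.unpair.2) q.unpair.1) 1 (fun _ => 0) : ℕ)) (Nat.pair a n) = 0 := by
    intro a
    obtain ⟨s, v, h⟩ := hc a
    exact ⟨s, by simp [h]⟩
  have h2 := h1.rfind ex
  have c2 : Computable₂ (fun (n : ℕ) (l : List ℕ) => (θ l n).getD 0) :=
    Computable.option_getD (hθ.comp Computable.snd Computable.fst) (Computable.const 0)
  refine (red_tt c2 h2).of_eq (fun n => ?_)
  have := Nat.find_spec (ex n)
  generalize Nat.find (ex n) = s at this
  simp only [Nat.unpair_pair] at this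
  cases h : θ (pre O s) n with
  | none => simp [h] at this
  | some v => simpa using hs s n v h

/-- Normal form, first stage. -/
theorem normal1 {O : B} {f : ℕ →. ℕ} (hf : Nat.RecursiveIn {(O : ℕ →. ℕ)} f) :
    ∃ Ψ : List ℕ → ℕ →. ℕ, Partrec₂ Ψ ∧ (∀ s n v, v ∈ Ψ (pre O s) n → v ∈ f n) ∧
      (∀ n v, v ∈ f n → ∀ᶠ s in atTop, v ∈ Ψ (pre O s) n) := by
  have base : ∀ f : ℕ →. ℕ, Nat.Partrec f → ∃ Ψ : List ℕ → ℕ →. ℕ, Partrec₂ Ψ ∧
      (∀ s n v, v ∈ Ψ (pre O s) n → v ∈ f n) ∧
      (∀ n v, v ∈ f n → ∀ᶠ s in atTop, v ∈ Ψ (pre O s) n) := fun f hf =>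
    ⟨fun _ => f, (Partrec.nat_iff.2 hf).comp Computable.snd, fun _ _ _ h => h,
      fun _ _ h => Eventually.of_forall fun _ => h⟩
  induction hf with
  | zero => exact base _ .zero
  | succ => exact base _ .succ
  | left => exact base _ .left
  | right => exact base _ .right
  | oracle g hg =>
    rw [Set.mem_singleton_iff.mp hg]
    refine ⟨fun l n => (l[n]? : Part ℕ), Computable.ofOption Computable.list_getElem?, ?_, ?_⟩
    · intro s n v h
      simp only [Part.mem_ofOption, pre_get?, Option.mem_def] at h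
      split_ifs at h
      simpa using (Option.some.inj h).symm
    · intro n v h
      filter_upwards [eventually_gt_atTop n] with s hs
      simp only [Part.mem_ofOption, pre_get?, Option.mem_def, if_pos hs]
      simp at h; rw [h]
  | pair _ _ ihf ihh =>
    obtain ⟨Ψ1, p1, a1, b1⟩ := ihf
    obtain ⟨Ψ2, p2, a2, b2⟩ := ihh
    refine ⟨fun l n => (Ψ1 l n).bind fun a => (Ψ2 l n).map fun b => Nat.pair a b, ?_, ?_, ?_⟩
    · exact Partrec.bind p1 (Partrec.map (p2.comp (Computable.fst.comp Computable.fst)
        (Computable.snd.comp Computable.fst))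
        (Primrec₂.natPair.to_comp.comp (Computable.snd.comp Computable.fst) Computable.snd).to₂).to₂
    · intro s n v h
      simp only [Part.mem_bind_iff, Part.mem_map_iff] at h
      obtain ⟨a, ha, b, hb, rfl⟩ := h
      simp only [Seq.seq, Part.map_eq_map, Part.bind_eq_bind, Part.mem_bind_iff, Part.mem_map_iff]
      exact ⟨_, ⟨a, a1 _ _ _ ha, rfl⟩, b, a2 _ _ _ hb, rfl⟩
    · intro n v h
      simp only [Seq.seq, Part.map_eq_map, Part.bind_eq_bind, Part.mem_bind_iff,
        Part.mem_map_iff] at h
      obtain ⟨_, ⟨a, ha, rfl⟩, b, hb, rfl⟩ := h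
      filter_upwards [b1 n a ha, b2 n b hb] with s h1 h2
      simp only [Part.mem_bind_iff, Part.mem_map_iff]
      exact ⟨a, h1, b, h2, rfl⟩
  | comp _ _ ihf ihh =>
    obtain ⟨Ψ1, p1, a1, b1⟩ := ihf
    obtain ⟨Ψ2, p2, a2, b2⟩ := ihh
    refine ⟨fun l n => (Ψ2 l n).bind fun a => Ψ1 l a, ?_, ?_, ?_⟩
    · exact Partrec.bind p2 (p1.comp (Computable.fst.comp Computable.fst) Computable.snd).to₂
    · intro s n v h
      simp only [Part.mem_bind_iff] at h
      obtain ⟨a, ha, hb⟩ := h
      exact Part.mem_bind_iff.2 ⟨a, a2 _ _ _ ha, a1 _ _ _ hb⟩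
    · intro n v h
      obtain ⟨a, ha, hb⟩ := Part.mem_bind_iff.1 h
      filter_upwards [b2 n a ha, b1 a v hb] with s h1 h2
      simp only [Part.mem_bind_iff]
      exact ⟨a, h1, h2⟩
  | prec _ _ ihf ihh =>
    obtain ⟨Ψ1, p1, a1, b1⟩ := ihf
    obtain ⟨Ψ2, p2, a2, b2⟩ := ihh
    refine ⟨fun l p => Nat.rec (Ψ1 l p.unpair.1) (fun y IH => IH.bind fun i =>
      Ψ2 l (Nat.pair p.unpair.1 (Nat.pair y i))) p.unpair.2, ?_, ?_, ?_⟩
    · exact Partrec.nat_rec (f := fun q : List ℕ × ℕ => q.2.unpair.2)
        (g := fun q : List ℕ × ℕ => Ψ1 q.1 q.2.unpair.1)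
        (h := fun (q : List ℕ × ℕ) (r : ℕ × ℕ) => Ψ2 q.1 (Nat.pair q.2.unpair.1 (Nat.pair r.1 r.2)))
        (Computable.snd.comp (Computable.unpair.comp Computable.snd))
        (p1.comp Computable.fst (Computable.fst.comp (Computable.unpair.comp Computable.snd)))
        (p2.comp (Computable.fst.comp Computable.fst) (Primrec₂.natPair.to_comp.comp
          (Computable.fst.comp (Computable.unpair.comp (Computable.snd.comp Computable.fst)))
          (Primrec₂.natPair.to_comp.comp (Computable.fst.comp Computable.snd)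
            (Computable.snd.comp Computable.snd)))).to₂
    · intro s p v h
      simp only at h ⊢
      generalize p.unpair.2 = n at h ⊢
      induction n generalizing v with
      | zero => exact a1 _ _ _ h
      | succ n ih =>
        simp only [Part.mem_bind_iff, Part.bind_eq_bind] at h ⊢
        obtain ⟨a, ha, hb⟩ := h
        exact ⟨a, ih a ha, a2 _ _ _ hb⟩
    · intro p v h
      simp only at h ⊢
      generalize p.unpair.2 = n at h ⊢
      induction n generalizing v with
      | zero => exact b1 _ _ h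
      | succ n ih =>
        simp only [Part.mem_bind_iff, Part.bind_eq_bind] at h ⊢
        obtain ⟨a, ha, hb⟩ := h
        filter_upwards [ih a ha, b2 _ _ hb] with s h1 h2
        exact ⟨a, h1, h2⟩
  | rfind _ ihf =>
    obtain ⟨Ψ1, p1, a1, b1⟩ := ihf
    refine ⟨fun l a => Nat.rfind fun n => (Ψ1 l (Nat.pair a n)).map (fun m => decide (m = 0)),
      ?_, ?_, ?_⟩
    · exact Partrec.rfind (p := fun (q : List ℕ × ℕ) n =>
        (Ψ1 q.1 (Nat.pair q.2 n)).map (fun m => decide (m = 0)))
        (Partrec.map (p1.comp (Computable.fst.comp Computable.fst)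
          (Primrec₂.natPair.to_comp.comp (Computable.snd.comp Computable.fst) Computable.snd))
          ((Primrec.eq.comp Primrec.snd (Primrec.const 0)).decide.to_comp).to₂).to₂
    · intro s a v h
      obtain ⟨h1, h2⟩ := Nat.mem_rfind.1 h
      obtain ⟨m, hm, e⟩ := (Part.mem_map_iff _).1 h1
      refine Nat.mem_rfind.2 ⟨(Part.mem_map_iff _).2 ⟨m, a1 _ _ _ hm, e⟩, fun {k} hk => ?_⟩
      obtain ⟨m', hm', e'⟩ := (Part.mem_map_iff _).1 (h2 hk)
      exact (Part.mem_map_iff _).2 ⟨m', a1 _ _ _ hm', e'⟩
    · intro a v h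
      obtain ⟨h1, h2⟩ := Nat.mem_rfind.1 h
      obtain ⟨m, hm, e⟩ := (Part.mem_map_iff _).1 h1
      have h3 : ∀ᶠ s in atTop, ∀ k ∈ Finset.range v,
          ∃ m' ∈ Ψ1 (pre O s) (Nat.pair a k), decide (m' = 0) = false := by
        rw [Finset.eventually_all]
        intro k hk
        obtain ⟨m', hm', e'⟩ := (Part.mem_map_iff _).1 (h2 (Finset.mem_range.1 hk))
        filter_upwards [b1 _ _ hm'] with s hs
        exact ⟨m', hs, e'⟩
      filter_upwards [b1 _ _ hm, h3] with s h4 h5
      exact Nat.mem_rfind.2 ⟨(Part.mem_map_iff _).2 ⟨m, h4, e⟩,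
        fun {k} hk => (Part.mem_map_iff _).2 (h5 k (Finset.mem_range.2 hk))⟩

end Vale.Agent.P327
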