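import Vale.Agent.P327.Comp

namespace Vale.Agent.P327

open Filter

/-- Monotone maps on finite strings. -/
def Mono (Θ : List ℕ → List ℕ) : Prop := ∀ σ σ', σ <+: σ' → Θ σ <+: Θ σ'

/-- Computable functionals, given by monotone primitive recursive maps on strings. -/
def Fn : Type := {Θ : List ℕ → List ℕ // Primrec Θ ∧ Mono Θ}

instance : Countable Fn := by
  have h : ∀ Θ : Fn, ∃ c : Nat.Partrec.Code, c.eval = fun n =>
      Part.bind (Encodable.decode (α := List ℕ) n) fun a =>
        ((Θ.1 : List ℕ →. List ℕ) a).map Encodable.encode :=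
    fun Θ => Nat.Partrec.Code.exists_code.1 Θ.2.1.to_comp
  choose c hc using h
  refine Function.Injective.countable (f := c) (fun Θ Θ' e => ?_)
  apply Subtype.ext
  funext σ
  have := congrFun ((hc Θ).symm.trans (e ▸ hc Θ')) (Encodable.encode σ)
  simpa using this

/-- The functional `Θ` computes `f` from the oracle `O`. -/
def Cmp (Θ : List ℕ → List ℕ) (O f : B) : Prop := ∀ n, ∃ s, (Θ (pre O s))[n]? = some (f n)

theorem get?_of_isPrefix {l l' : List ℕ} (h : l <+: l') {n v : ℕ} (e : l[n]? = some v) :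
    l'[n]? = some v := by
  obtain ⟨r, rfl⟩ := h
  have : n < l.length := by
    by_contra hn
    rw [List.getElem?_eq_none (by omega)] at e
    cases e
  rw [List.getElem?_append_left this, e]

theorem Mono.step {Θ} (hΘ : Mono Θ) {O : B} {s s' n v : ℕ} (h : s ≤ s')
    (e : (Θ (pre O s))[n]? = some v) : (Θ (pre O s'))[n]? = some v :=
  get?_of_isPrefix (hΘ _ _ (pre_isPrefix O h)) e

theorem Cmp.sound {Θ} (hΘ : Mono Θ) {O f : B} (h : Cmp Θ O f) {s n v : ℕ}
    (e : (Θ (pre O s))[n]? = some v) : v = f n := by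
  obtain ⟨s', e'⟩ := h n
  have a := hΘ.step (le_max_left s s') e
  have b := hΘ.step (le_max_right s s') e'
  rw [a] at b
  exact Option.some.inj b

theorem Cmp.unique {Θ} (hΘ : Mono Θ) {O f g : B} (h : Cmp Θ O f) (h' : Cmp Θ O g) : f = g := by
  funext n
  obtain ⟨s, e⟩ := h n
  exact h'.sound hΘ e

theorem Cmp.red {Θ : Fn} {O f : B} (h : Cmp Θ.1 O f) : Red f O :=
  red_search (θ := fun σ n => (Θ.1 σ)[n]?)
    (Computable.list_getElem?.comp (Θ.2.1.to_comp.comp Computable.fst) Computable.snd)
    (fun _ _ _ e => h.sound Θ.2.2 e) (fun n => (h n).imp fun _ e => ⟨_, e⟩)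

/-- One stage of the monotone approximation. -/
def stg (c : Nat.Partrec.Code) (σ : List ℕ) (k : ℕ) : List ℕ :=
  Nat.rec [] (fun k acc => acc ++ (Nat.Partrec.Code.evaln k.unpair.2 c
    (Encodable.encode (σ.take k.unpair.1, acc.length))).toList) k

theorem stg_succ (c σ k) : stg c σ (k + 1) = stg c σ k ++ (Nat.Partrec.Code.evaln k.unpair.2 c
    (Encodable.encode (σ.take k.unpair.1, (stg c σ k).length))).toList := rfl

theorem stg_mono (c σ) {k k' : ℕ} (h : k ≤ k') : stg c σ k <+: stg c σ k' := by
  induction h with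
  | refl => exact List.prefix_refl _
  | step _ ih => rw [stg_succ]; exact ih.trans (List.prefix_append _ _)

theorem stg_congr (c) {σ σ' : List ℕ} (h : σ <+: σ') {k : ℕ} (hk : k ≤ σ.length) :
    stg c σ k = stg c σ' k := by
  induction k with
  | zero => rfl
  | succ k ih =>
    have h1 : k.unpair.1 ≤ k := Nat.unpair_left_le k
    obtain ⟨r, rfl⟩ := h
    rw [stg_succ, stg_succ, ← ih (by omega), List.take_append_of_le_length (by omega)]

theorem stg_primrec (c : Nat.Partrec.Code) : Primrec (fun σ : List ℕ => stg c σ σ.length) := by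
  refine Primrec.nat_rec' (f := fun σ : List ℕ => σ.length) (g := fun _ => ([] : List ℕ))
    (h := fun (σ : List ℕ) (p : ℕ × List ℕ) => p.2 ++ (Nat.Partrec.Code.evaln p.1.unpair.2 c
      (Encodable.encode (σ.take p.1.unpair.1, p.2.length))).toList)
    Primrec.list_length (Primrec.const _) ?_
  apply Primrec₂.mk
  refine Primrec.list_append.comp (Primrec.snd.comp Primrec.snd) (Primrec.optionToList.comp ?_)
  refine Nat.Partrec.Code.primrec_evaln.comp
    (g := fun q : List ℕ × ℕ × List ℕ => ((q.2.1.unpair.2, c),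
      Encodable.encode (q.1.take q.2.1.unpair.1, q.2.2.length)))
    (Primrec.pair (Primrec.pair ?_ (Primrec.const c)) ?_)
  · exact Primrec.snd.comp (Primrec.unpair.comp (Primrec.fst.comp Primrec.snd))
  · exact Primrec.encode.comp (Primrec.pair (Primrec.list_take.comp
      (Primrec.fst.comp (Primrec.unpair.comp (Primrec.fst.comp Primrec.snd))) Primrec.fst)
      (Primrec.list_length.comp (Primrec.snd.comp Primrec.snd)))

theorem Red.cmp {O f : B} (h : Red f O) : ∃ Θ : Fn, Cmp Θ.1 O f := by
  obtain ⟨Ψ, hp, hs, hc⟩ := normal1 h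
  obtain ⟨c, hcode⟩ := Nat.Partrec.Code.exists_code.1 hp
  have hev : ∀ σ n v, v ∈ c.eval (Encodable.encode (σ, n)) ↔ v ∈ Ψ σ n := by
    intro σ n v
    rw [hcode]
    simp only [Encodable.encodek, Part.coe_some, Part.bind_some, Part.mem_map_iff]
    constructor
    · rintro ⟨a, ha, rfl⟩; exact ha
    · intro h; exact ⟨v, h, rfl⟩
  refine ⟨⟨fun σ => stg c σ σ.length, stg_primrec c, fun σ σ' e => ?_⟩, ?_⟩
  · show stg c σ σ.length <+: stg c σ' σ'.length
    rw [stg_congr c e le_rfl]
    exact stg_mono c σ' e.length_le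
  have sound : ∀ s k, k ≤ s → stg c (pre O s) k = pre f (stg c (pre O s) k).length := by
    intro s k hk
    induction k with
    | zero => rfl
    | succ k ih =>
      have h1 : k.unpair.1 ≤ k := Nat.unpair_left_le k
      have ih' := ih (by omega)
      rw [stg_succ, pre_take O (by omega)]
      generalize stg c (pre O s) k = l at ih'
      cases e : Nat.Partrec.Code.evaln k.unpair.2 c
        (Encodable.encode (pre O k.unpair.1, l.length)) with
      | none => simpa using ih'
      | some v =>
        have := hs _ _ _ ((hev _ _ _).1 (Nat.Partrec.Code.evaln_sound e))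
        simp only [PFun.coe_val, Part.mem_some_iff] at this
        simp only [Option.toList_some, List.length_append, List.length_singleton]
        rw [pre_succ, ← ih', this]
  have len : ∀ n, ∃ s, n ≤ (stg c (pre O s) s).length := by
    intro n
    induction n with
    | zero => exact ⟨0, Nat.zero_le _⟩
    | succ n ih =>
      obtain ⟨s0, h0⟩ := ih
      obtain ⟨s1, h1⟩ := (hc n (f n) (by simp)).exists
      obtain ⟨k1, hk1⟩ := Nat.Partrec.Code.evaln_complete.1 ((hev _ _ _).2 h1)
      refine ⟨Nat.pair s1 (max k1 s0) + 1, ?_⟩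
      have a1 := Nat.right_le_pair s1 (max k1 s0)
      have a2 := Nat.left_le_pair s1 (max k1 s0)
      have a3 : k1 ≤ max k1 s0 := le_max_left _ _
      have a4 : s0 ≤ max k1 s0 := le_max_right _ _
      have b1 : n ≤ (stg c (pre O (Nat.pair s1 (max k1 s0) + 1)) (Nat.pair s1 (max k1 s0))).length := by
        refine h0.trans ?_
        rw [stg_congr c (pre_isPrefix O (show s0 ≤ Nat.pair s1 (max k1 s0) + 1 by omega))
          (by simp)]
        exact (stg_mono c _ (by omega)).length_le
      rw [stg_succ, List.length_append]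
      rcases b1.eq_or_lt with b2 | b2
      · rw [← b2, Nat.unpair_pair, pre_take O (by simp only; omega)]
        have := Nat.Partrec.Code.evaln_mono a3 hk1
        simp only [Option.mem_def] at this
        simp only [this]
        simp
      · omega
  intro n
  obtain ⟨s, hs⟩ := len (n + 1)
  refine ⟨s, ?_⟩
  simp only [pre_length]
  rw [sound s s le_rfl, pre_get?, if_pos (by omega)]

/-- Approximating sequences. -/
def Apx (A : ℕ → List ℕ) (f : B) : Prop :=
  (∀ s, A s = pre f (A s).length) ∧ Tendsto (fun s => (A s).length) atTop atTop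

theorem apx_pre (O : B) : Apx (pre O) O :=
  ⟨fun s => by simp, by simp only [pre_length]; exact tendsto_id⟩

theorem eq_pre_of_sound {l : List ℕ} {f : B} (h : ∀ n v, l[n]? = some v → v = f n) :
    l = pre f l.length := by
  apply List.ext_getElem?
  intro n
  rw [pre_get?]
  split_ifs with hn
  · rw [← h n _ (List.getElem?_eq_getElem hn), List.getElem?_eq_getElem hn]
  · exact List.getElem?_eq_none (by omega)

theorem Apx.app {Θ} (hΘ : Mono Θ) {O f : B} (h : Cmp Θ O f) {A} (hA : Apx A O) :
    Apx (fun s => Θ (A s)) f := by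
  refine ⟨fun s => eq_pre_of_sound fun n v e => ?_, ?_⟩
  · beta_reduce at e
    rw [hA.1 s] at e
    exact h.sound hΘ e
  · rw [tendsto_atTop]
    intro n
    obtain ⟨s0, e⟩ := h n
    filter_upwards [tendsto_atTop.1 hA.2 s0] with s hs
    have := hΘ.step hs e
    rw [← hA.1 s] at this
    by_contra hn
    rw [List.getElem?_eq_none (by omega)] at this
    cases this

theorem Apx.sound {A f} (h : Apx A f) {s n v : ℕ} (e : (A s)[n]? = some v) : v = f n := by
  rw [h.1 s, pre_get?] at e
  split_ifs at e
  exact (Option.some.inj e).symm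

theorem Apx.ev {A f} (h : Apx A f) (n : ℕ) : ∀ᶠ s in atTop, (A s)[n]? = some (f n) := by
  filter_upwards [tendsto_atTop.1 h.2 (n + 1)] with s hs
  rw [h.1 s, pre_get?, if_pos (by omega)]

theorem Cmp.comp {Θ Θ'} (hΘ : Mono Θ) (hΘ' : Mono Θ') {O f h : B} (h1 : Cmp Θ O f)
    (h2 : Cmp Θ' f h) : Cmp (fun σ => Θ' (Θ σ)) O h := fun n =>
  ((Apx.app hΘ' h2 (Apx.app hΘ h1 (apx_pre O))).ev n).exists

theorem Cmp.of_comp {Θ Θ'} (hΘ : Mono Θ) {O f h : B} (h1 : Cmp Θ O f)
    (h2 : Cmp (fun σ => Θ' (Θ σ)) O h) : Cmp Θ' f h := fun n => by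
  obtain ⟨s, e⟩ := h2 n
  refine ⟨(Θ (pre O s)).length, ?_⟩
  rw [← (Apx.app hΘ h1 (apx_pre O)).1 s]
  exact e

/-- Join of strings. -/
def zipJ (l l' : List ℕ) : List ℕ :=
  (List.range (min l.length l'.length)).map fun i => Nat.pair (l.getD i 0) (l'.getD i 0)

theorem zipJ_primrec : Primrec₂ zipJ :=
  Primrec.list_map (Primrec.list_range.comp (Primrec.nat_min.comp
    (Primrec.list_length.comp Primrec.fst) (Primrec.list_length.comp Primrec.snd)))
    (Primrec₂.natPair.comp
      ((Primrec.list_getD 0).comp (Primrec.fst.comp Primrec.fst) Primrec.snd)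
      ((Primrec.list_getD 0).comp (Primrec.snd.comp Primrec.fst) Primrec.snd)).to₂

theorem zipJ_pre (f g : B) (a b : ℕ) : zipJ (pre f a) (pre g b) = pre (J f g) (min a b) := by
  have : zipJ (pre f a) (pre g b) = pre (fun i => Nat.pair ((pre f a).getD i 0)
    ((pre g b).getD i 0)) (min a b) := by simp [zipJ, pre]
  rw [this]
  refine pre_congr fun i hi => ?_
  rw [pre_getD f (by omega), pre_getD g (by omega)]
  rfl

theorem Apx.zip {A A' f g} (h : Apx A f) (h' : Apx A' g) :
    Apx (fun s => zipJ (A s) (A' s)) (J f g) := by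
  have e : ∀ s, zipJ (A s) (A' s) = pre (J f g) (min (A s).length (A' s).length) := fun s => by
    rw [← zipJ_pre, ← h.1, ← h'.1]
  refine ⟨fun s => by simp only [e, pre_length], ?_⟩
  simp only [e, pre_length]
  rw [tendsto_atTop]
  intro n
  filter_upwards [tendsto_atTop.1 h.2 n, tendsto_atTop.1 h'.2 n] with s h1 h2
  omega

theorem Apx.left {A f g} (h : Apx A (J f g)) :
    Apx (fun s => (A s).map fun n => n.unpair.1) f := by
  refine ⟨fun s => ?_, by simpa using h.2⟩
  simp only [List.length_map]
  rw [h.1 s]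
  simp [pre, J]

theorem Apx.right {A f g} (h : Apx A (J f g)) :
    Apx (fun s => (A s).map fun n => n.unpair.2) g := by
  refine ⟨fun s => ?_, by simpa using h.2⟩
  simp only [List.length_map]
  rw [h.1 s]
  simp [pre, J]

theorem pre_ofList (l : List ℕ) : pre (fun i => l.getD i 0) l.length = l :=
  (eq_pre_of_sound (fun n v e => by simp [List.getD_eq_getElem?_getD, e])).symm

/-- If `z` is computed by one functional from `y` joined with a dense set of `t`,
then `z` is computable from `y`. -/
theorem red_of_dense (Θ : Fn) {y z u : B} {L : ℕ}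
    (h : ∀ u' : B, (∀ i < L, u' i = u i) → ∀ L', ∃ t : B, (∀ i < L', t i = u' i) ∧
      Cmp Θ.1 (J y t) z) : Red z y := by
  refine red_search (θ := fun σ n => (Θ.1 (zipJ σ (pre u L ++
    Denumerable.ofNat (List ℕ) σ.length.unpair.1)))[n]?) ?_ ?_ ?_
  · refine Computable.list_getElem?.comp (Primrec.to_comp ?_) Computable.snd
    refine Θ.2.1.comp (zipJ_primrec.comp Primrec.fst (Primrec.list_append.comp (Primrec.const _)
      ((Primrec.ofNat (List ℕ)).comp (Primrec.fst.comp (Primrec.unpair.comp
        (Primrec.list_length.comp Primrec.fst))))))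
  · intro s n v e
    generalize Denumerable.ofNat (List ℕ) (pre y s).length.unpair.1 = l at e
    obtain ⟨t, ht, hc⟩ := h (fun i => (pre u L ++ l).getD i 0) (fun i hi => by
      rw [List.getD_append _ _ _ _ (by simpa using hi), pre_getD u hi]) (pre u L ++ l).length
    rw [← pre_ofList (pre u L ++ l), ← pre_congr ht, zipJ_pre] at e
    exact hc.sound Θ.2.2 e
  · intro n
    obtain ⟨t, ht, hc⟩ := h u (fun _ _ => rfl) L
    obtain ⟨s0, e⟩ := hc n
    refine ⟨Nat.pair (Encodable.encode ((pre t (L + s0)).drop L)) (L + s0), z n, ?_⟩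
    have a1 := Nat.right_le_pair (Encodable.encode ((pre t (L + s0)).drop L)) (L + s0)
    simp only [pre_length, Nat.unpair_pair, Denumerable.ofNat_encode]
    rw [← pre_congr ht, ← pre_take t (show L ≤ L + s0 by omega), List.take_append_drop, zipJ_pre]
    exact Θ.2.2.step (by omega) e

end Vale.Agent.P327
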