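import Mathlib.Computability.TuringDegree

namespace Vale.Agent.P327

open Classical in
/-- The characteristic function of a set of natural numbers (value 1 on members, 0 elsewhere),
as an everywhere defined element of `ℕ →. ℕ`. -/
noncomputable def chi (A : Set ℕ) : ℕ →. ℕ :=
  fun n => Part.some (if n ∈ A then 1 else 0)

/-- Turing reducibility of sets: the characteristic function of `A` is recursive in the oracle
given by the characteristic function of `B`. -/
def TLE (A B : Set ℕ) : Prop := TuringReducible (chi A) (chi B)

/-- Turing equivalence of sets. -/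
def TEq : Setoid (Set ℕ) where
  r A B := TLE A B ∧ TLE B A
  iseqv :=
    ⟨fun _ => ⟨TuringReducible.refl _, TuringReducible.refl _⟩, fun h => ⟨h.2, h.1⟩,
      fun h k => ⟨TuringReducible.trans h.1 k.1, TuringReducible.trans k.2 h.2⟩⟩

/-- The Turing degrees: all subsets of `ℕ` modulo Turing equivalence. -/
abbrev Degree : Type := Quotient TEq

/-- The order of the Turing degrees. -/
def DLE (a b : Degree) : Prop :=
  ∃ A B : Set ℕ, Quotient.mk TEq A = a ∧ Quotient.mk TEq B = b ∧ TLE A B

end Vale.Agent.P327
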