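import Vale.Agent.P327.Cat

namespace Vale.Agent.P327

open Filter Set

/-- The three involutions, with the relevant oracle value as an argument. -/
def gen' (i u b : ℕ) : ℕ :=
  if i = 0 then (if u % 2 = 0 then u + 1 else u - 1)
  else if i = 1 then (if u % 2 = 0 then u - 1 else u + 1)
  else if u / 6 = 0 ∨ (u / 6 % 2 = 1 ∧ ¬ b = u / 6 / 2 % 2) then
    (if u % 6 = 0 then u + 2 else if u % 6 = 2 then u - 2 else u) else u

/-- The three involutions. -/
def gen (x : B) (i u : ℕ) : ℕ := gen' i u (x (u / 6 / 4))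

theorem gen'_primrec (i : ℕ) : Primrec₂ (gen' i) := by
  have m (k : ℕ) : Primrec fun p : ℕ × ℕ => p.1 % k :=
    Primrec.nat_mod.comp Primrec.fst (Primrec.const k)
  have a (k : ℕ) : Primrec fun p : ℕ × ℕ => p.1 + k :=
    Primrec.nat_add.comp Primrec.fst (Primrec.const k)
  have s (k : ℕ) : Primrec fun p : ℕ × ℕ => p.1 - k :=
    Primrec.nat_sub.comp Primrec.fst (Primrec.const k)
  have d : Primrec fun p : ℕ × ℕ => p.1 / 6 :=
    Primrec.nat_div.comp Primrec.fst (Primrec.const 6)
  apply Primrec₂.mk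
  unfold gen'
  split_ifs
  · exact Primrec.ite (Primrec.eq.comp (m 2) (Primrec.const 0)) (a 1) (s 1)
  · exact Primrec.ite (Primrec.eq.comp (m 2) (Primrec.const 0)) (s 1) (a 1)
  · refine Primrec.ite (PrimrecPred.or (Primrec.eq.comp d (Primrec.const 0))
      (PrimrecPred.and (Primrec.eq.comp (Primrec.nat_mod.comp d (Primrec.const 2))
        (Primrec.const 1)) (PrimrecPred.not (Primrec.eq.comp Primrec.snd
          (Primrec.nat_mod.comp (Primrec.nat_div.comp d (Primrec.const 2)) (Primrec.const 2))))))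
      (Primrec.ite (Primrec.eq.comp (m 6) (Primrec.const 0)) (a 2)
        (Primrec.ite (Primrec.eq.comp (m 6) (Primrec.const 2)) (s 2) Primrec.fst)) Primrec.fst

/-- The set of swapped blocks. -/
def PP (x : B) (m : ℕ) : Prop := m = 0 ∨ (m % 2 = 1 ∧ ¬ x (m / 4) = m / 2 % 2)

theorem gen_zero (x : B) (u : ℕ) : gen x 0 u = if u % 2 = 0 then u + 1 else u - 1 := rfl
theorem gen_one (x : B) (u : ℕ) : gen x 1 u = if u % 2 = 0 then u - 1 else u + 1 := rfl

open Classical in
theorem gen_two (x : B) {i : ℕ} (hi : 2 ≤ i) (u : ℕ) : gen x i u = if PP x (u / 6) then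
    (if u % 6 = 0 then u + 2 else if u % 6 = 2 then u - 2 else u) else u := by
  unfold gen gen' PP
  rw [if_neg (by omega), if_neg (by omega)]
  congr

theorem gen_gen (x : B) (i u : ℕ) : gen x i (gen x i u) = u := by
  rcases Nat.lt_or_ge i 2 with h | h
  · interval_cases i
    · simp only [gen_zero]; split_ifs <;> omega
    · simp only [gen_one]; split_ifs <;> omega
  · rw [gen_two x h u]
    by_cases hP : PP x (u / 6)
    · rw [if_pos hP]
      split_ifs with h1 h2
      · rw [gen_two x h, show (u + 2) / 6 = u / 6 by omega, if_pos hP]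
        split_ifs <;> omega
      · rw [gen_two x h, show (u - 2) / 6 = u / 6 by omega, if_pos hP]
        split_ifs <;> omega
      · rw [gen_two x h, if_pos hP, if_neg h1, if_neg h2]
    · rw [if_neg hP, gen_two x h, if_neg hP]

theorem gen_min (x : B) (i : ℕ) : gen x (min i 2) = gen x i := by
  funext u
  rcases Nat.lt_or_ge i 2 with h | h
  · rw [min_eq_left h.le]
  · rw [min_eq_right h, gen_two x h, gen_two x le_rfl]

/-- Evaluation of a word. -/
def ev (x : B) (w : List ℕ) (u : ℕ) : ℕ := w.foldr (gen x) u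

theorem ev_cons (x : B) (i : ℕ) (w : List ℕ) (u : ℕ) : ev x (i :: w) u = gen x i (ev x w u) := rfl

theorem ev_append (x : B) (w w' : List ℕ) (u : ℕ) : ev x (w ++ w') u = ev x w (ev x w' u) := by
  simp [ev]

theorem ev_rev (x : B) (w : List ℕ) (u : ℕ) : ev x w.reverse (ev x w u) = u := by
  induction w with
  | nil => rfl
  | cons i w ih =>
    rw [List.reverse_cons, ev_append, ev_cons x i w]
    show ev x w.reverse (gen x i (gen x i _)) = u
    rw [gen_gen, ih]

theorem ev_rev' (x : B) (w : List ℕ) (u : ℕ) : ev x w (ev x w.reverse u) = u := by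
  have := ev_rev x w.reverse u
  rwa [List.reverse_reverse] at this

/-- Coding of the integers. -/
def e (u : ℕ) : ℤ := if u % 2 = 0 then (u / 2 : ℕ) else -((u / 2 : ℕ) : ℤ) - 1

theorem e_inj {u v : ℕ} (h : e u = e v) : u = v := by
  unfold e at h
  split_ifs at h <;> omega

/-- The word of the shift. -/
def S (n : ℕ) : List ℕ := Nat.rec [] (fun _ l => 1 :: 0 :: l) n

theorem e_S (x : B) (n u : ℕ) : e (ev x (S n) u) = e u + n := by
  induction n with
  | zero => simp [S, ev]
  | succ n ih =>
    show e (gen x 1 (gen x 0 (ev x (S n) u))) = _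
    generalize ev x (S n) u = v at ih
    simp only [gen_zero, gen_one, e] at ih ⊢
    split_ifs at ih ⊢ <;> omega

theorem e_S' (x : B) (n u : ℕ) : e (ev x (S n).reverse u) = e u - n := by
  have := e_S x n (ev x (S n).reverse u)
  rw [ev_rev'] at this
  omega

/-- The swapped blocks, on the integers. -/
def PZ (x : B) (m : ℤ) : Prop := 0 ≤ m ∧ PP x m.toNat

open Classical in
/-- The third involution on the integers. -/
noncomputable def cz (x : B) (y : ℤ) : ℤ :=
  if PZ x (y / 3) then (if y % 3 = 0 then y + 1 else if y % 3 = 1 then y - 1 else y) else y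

theorem e_c (x : B) (u : ℕ) : e (gen x 2 u) = cz x (e u) := by
  rw [gen_two x le_rfl]
  unfold cz
  rcases Nat.mod_two_eq_zero_or_one u with h | h
  · have h1 : e u = (u / 2 : ℕ) := by simp [e, h]
    have h2 : PZ x (e u / 3) ↔ PP x (u / 6) := by
      unfold PZ
      rw [h1, show (((u / 2 : ℕ) : ℤ) / 3).toNat = u / 6 by omega]
      exact ⟨fun h => h.2, fun h => ⟨by omega, h⟩⟩
    by_cases hP : PP x (u / 6)
    · rw [if_pos hP, if_pos (h2.2 hP), h1]
      unfold e
      split_ifs <;> omega
    · rw [if_neg hP, if_neg (fun h => hP (h2.1 h))]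
  · have h1 : e u = -((u / 2 : ℕ) : ℤ) - 1 := by simp [e, h]
    have h2 : ¬ PZ x (e u / 3) := fun h => by
      have := h.1
      omega
    rw [if_neg h2]
    split_ifs <;> first | rfl | omega

/-- The test words. -/
def W (k : ℕ) : List ℕ :=
  (2 :: (S (6 * k + 2)).reverse ++ 2 :: S (6 * k + 2)) ++
    (2 :: (S (6 * k + 2)).reverse ++ 2 :: S (6 * k + 2))

/-- The conjugated third involution. -/
noncomputable def dz (x : B) (k : ℕ) (y : ℤ) : ℤ := cz x (y + (6 * k + 2)) - (6 * k + 2)

theorem e_W (x : B) (k u : ℕ) : e (ev x (W k) u) = cz x (dz x k (cz x (dz x k (e u)))) := by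
  simp only [W, ev_append, ev_cons, List.cons_append, e_c, e_S, e_S', dz]
  push_cast
  rfl

open Classical in
theorem cz0 (x : B) (m : ℤ) : cz x (3 * m) = if PZ x m then 3 * m + 1 else 3 * m := by
  unfold cz
  rw [show 3 * m / 3 = m by omega, if_pos (show 3 * m % 3 = 0 by omega)]

open Classical in
theorem cz1 (x : B) (m : ℤ) : cz x (3 * m + 1) = if PZ x m then 3 * m else 3 * m + 1 := by
  unfold cz
  rw [show (3 * m + 1) / 3 = m by omega, if_neg (show ¬ (3 * m + 1) % 3 = 0 by omega),
    if_pos (show (3 * m + 1) % 3 = 1 by omega)]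
  simp

theorem cz2 (x : B) (m : ℤ) : cz x (3 * m + 2) = 3 * m + 2 := by
  unfold cz
  rw [if_neg (show ¬ (3 * m + 2) % 3 = 0 by omega),
    if_neg (show ¬ (3 * m + 2) % 3 = 1 by omega)]
  simp

theorem dz0 (x : B) (k : ℕ) (m : ℤ) : dz x k (3 * m) = 3 * m := by
  unfold dz
  rw [show 3 * m + (6 * k + 2) = 3 * (m + 2 * k) + 2 by ring, cz2]
  ring

open Classical in
theorem dz1 (x : B) (k : ℕ) (m : ℤ) :
    dz x k (3 * m + 1) = if PZ x (m + 2 * k + 1) then 3 * m + 2 else 3 * m + 1 := by
  unfold dz
  rw [show 3 * m + 1 + (6 * k + 2) = 3 * (m + 2 * k + 1) by ring, cz0]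
  split_ifs <;> ring

open Classical in
theorem dz2 (x : B) (k : ℕ) (m : ℤ) :
    dz x k (3 * m + 2) = if PZ x (m + 2 * k + 1) then 3 * m + 1 else 3 * m + 2 := by
  unfold dz
  rw [show 3 * m + 2 + (6 * k + 2) = 3 * (m + 2 * k + 1) + 1 by ring, cz1]
  split_ifs <;> ring

theorem W_trivial {x : B} {k : ℕ} (h : x (k / 2) = k % 2) (u : ℕ) : ev x (W k) u = u := by
  apply e_inj
  rw [e_W]
  generalize e u = y
  have hP : ∀ m : ℤ, ¬ (PZ x m ∧ PZ x (m + 2 * k + 1)) := by
    rintro m ⟨⟨h1, h2⟩, -, h3⟩
    rcases h2 with h2 | h2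
    · rcases h3 with h3 | h3
      · omega
      · rw [show (m + 2 * k + 1).toNat = 2 * k + 1 by omega, show (2 * k + 1) / 4 = k / 2 by omega,
          show (2 * k + 1) / 2 = k by omega] at h3
        exact h3.2 h
    · have := h2.1
      rcases h3 with h3 | h3
      · omega
      · have := h3.1
        omega
  obtain ⟨m, hm⟩ : ∃ m, y = 3 * m ∨ y = 3 * m + 1 ∨ y = 3 * m + 2 := ⟨y / 3, by omega⟩
  have := hP m
  by_cases h1 : PZ x m <;> by_cases h2 : PZ x (m + 2 * k + 1) <;>
    rcases hm with rfl | rfl | rfl <;> simp_all [cz0, cz1, cz2, dz0, dz1, dz2]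

theorem W_nontrivial {x : B} {k : ℕ} (h : ¬ x (k / 2) = k % 2) : ev x (W k) 2 = 0 := by
  apply e_inj
  rw [e_W]
  have h1 : PZ x 0 := ⟨le_rfl, Or.inl rfl⟩
  have h2 : PZ x (0 + 2 * k + 1) := ⟨by omega, Or.inr (by
    rw [show ((0 : ℤ) + 2 * k + 1).toNat = 2 * k + 1 by omega,
      show (2 * k + 1) / 4 = k / 2 by omega, show (2 * k + 1) / 2 = k by omega]
    exact ⟨by omega, h⟩)⟩
  rw [show e 2 = 3 * 0 + 1 by rfl, dz1, if_pos h2, cz2, dz2, if_pos h2, cz1, if_pos h1]
  rfl

theorem connect {x : B} {w : List ℕ} (hw : ev x w 2 = 0) {R : ℕ → Prop}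
    (h : ∀ U u, R u ↔ R (ev x (U ++ w ++ U.reverse) u)) (u v : ℕ) : R u ↔ R v := by
  have h1 : ∀ U, R (ev x U 2) ↔ R (ev x U 0) := fun U => by
    rw [h U, ev_append, ev_append, ev_rev, hw]
  have h2 : ∀ n, R (ev x (S n) 0) ↔ R 0 := by
    intro n
    induction n with
    | zero => rfl
    | succ n ih =>
      rw [← ih, ← h1 (S n)]
      congr! 1
      apply e_inj
      simp only [e_S]
      simp [e]; ring
  have h3 : ∀ n, R (ev x (S n).reverse 0) ↔ R 0 := by
    intro n
    induction n with
    | zero => rfl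
    | succ n ih =>
      rw [← ih, ← h1]
      congr! 1
      apply e_inj
      simp only [e_S']
      simp [e]
  have h4 : ∀ u, R u ↔ R 0 := by
    intro u
    rcases Nat.mod_two_eq_zero_or_one u with h | h
    · rw [← h2 (u / 2)]
      congr! 1
      apply e_inj
      simp only [e_S]
      simp [e, h]
    · rw [← h3 (u / 2 + 1)]
      congr! 1
      apply e_inj
      simp only [e_S']
      simp [e, h]; ring
  rw [h4 u, h4 v]

theorem S_primrec : Primrec S :=
  Primrec.nat_rec₁ _ (Primrec.list_cons.comp (Primrec.const 1)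
    (Primrec.list_cons.comp (Primrec.const 0) Primrec.snd)).to₂

theorem W_primrec : Primrec W := by
  have h1 : Primrec fun k => S (6 * k + 2) := S_primrec.comp (Primrec.nat_add.comp
    (Primrec.nat_mul.comp (Primrec.const 6) Primrec.id) (Primrec.const 2))
  have h2 : Primrec fun k => (2 :: (S (6 * k + 2)).reverse ++ 2 :: S (6 * k + 2)) :=
    Primrec.list_append.comp (Primrec.list_cons.comp (Primrec.const 2)
      (Primrec.list_reverse.comp h1)) (Primrec.list_cons.comp (Primrec.const 2) h1)
  exact Primrec.list_append.comp h2 h2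

/-- Coordinatewise action of a word along the pattern `τ`. -/
def act (x : B) (w : List ℕ) (τ a : B) : B := fun j => if τ j % 2 = 1 then ev x w (a j) else a j

theorem act_nil (x τ a : B) : act x [] τ a = a := by
  funext j; simp [act, ev]

theorem act_append (x : B) (w w' : List ℕ) (τ a : B) :
    act x (w ++ w') τ a = act x w τ (act x w' τ a) := by
  funext j
  simp only [act, ev_append]
  split_ifs <;> rfl

theorem act_rev (x : B) (w : List ℕ) (τ a : B) : act x w.reverse τ (act x w τ a) = a := by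
  funext j
  simp only [act]
  split_ifs
  · exact ev_rev _ _ _
  · rfl

theorem act_rev' (x : B) (w : List ℕ) (τ a : B) : act x w τ (act x w.reverse τ a) = a := by
  have := act_rev x w.reverse τ a
  rwa [List.reverse_reverse] at this

theorem act_continuous (x : B) (w : List ℕ) (τ : B) : Continuous (act x w τ) :=
  continuous_pi fun j => (continuous_of_discreteTopology
    (f := fun u : ℕ => if τ j % 2 = 1 then ev x w u else u)).comp (continuous_apply j)

theorem act_meagre (x : B) (w : List ℕ) (τ : B) {M : Set B} (h : IsMeagre M) :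
    IsMeagre (act x w τ ⁻¹' M) :=
  meagre_preimage (act_continuous x w τ) (act_continuous x w.reverse τ) (act_rev x w τ)
    (act_rev' x w τ) h

theorem act_xor (x : B) (i : ℕ) (t t' a : B) :
    act x [i] t' (act x [i] (t + t') a) = act x [i] t a := by
  funext j
  simp only [act, Pi.add_apply]
  split_ifs <;> first | rfl | omega | exact gen_gen _ _ _

theorem act_act (x : B) (i : ℕ) (t a : B) : act x [i] t (act x [i] t a) = a :=
  act_rev x [i] t a

theorem act_of_trivial {x : B} {w : List ℕ} (h : ∀ u, ev x w u = u) (τ a : B) :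
    act x w τ a = a := by
  funext j; simp [act, h]

theorem red_act (x : B) (i : ℕ) (t a : B) : Red (act x [i] t a) (J a (J x t)) := by
  have c1 : Computable (fun q : ℕ => if q.unpair.2.unpair.1 % 2 = 1 then
      gen' i q.unpair.1 q.unpair.2.unpair.2 else q.unpair.1) :=
    (Primrec.ite (Primrec.eq.comp (Primrec.nat_mod.comp
      (Primrec.fst.comp (Primrec.unpair.comp (Primrec.snd.comp Primrec.unpair))) (Primrec.const 2))
      (Primrec.const 1)) ((gen'_primrec i).comp (Primrec.fst.comp Primrec.unpair)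
      (Primrec.snd.comp (Primrec.unpair.comp (Primrec.snd.comp Primrec.unpair))))
      (Primrec.fst.comp Primrec.unpair)).to_comp
  have c2 : Computable (fun u : ℕ => u / 6 / 4) :=
    (Primrec.nat_div.comp (Primrec.nat_div.comp Primrec.id (Primrec.const 6))
      (Primrec.const 4)).to_comp
  exact ((Red.of_computable _ c1).comp ((red_left _ _).pair ((red_right x t).jr.pair
    ((red_left x t).jr.comp ((Red.of_computable _ c2).comp (red_left _ _)))))).of_eq
    (fun j => by simp [J, act, ev, gen])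

end Vale.Agent.P327
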