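import Vale.Agent.P327.Cat

namespace Vale.Agent.P327

open Filter Set

/-- Column of a function. -/
def col (g : B) (m : ℕ) : B := fun j => g (Nat.pair m j)

/-- Select one column out of each pair of columns. -/
def Y (X g : B) : B := fun p => g (Nat.pair (2 * p.unpair.1 + X p.unpair.1) p.unpair.2)

theorem red_Y (X g : B) : Red (Y X g) (J X g) := by
  have c1 : Computable (fun q : ℕ =>
      Nat.pair (2 * q.unpair.1.unpair.1 + q.unpair.2) q.unpair.1.unpair.2) :=
    (Primrec₂.natPair.comp (Primrec.nat_add.comp (Primrec.nat_double.comp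
      (Primrec.fst.comp (Primrec.unpair.comp (Primrec.fst.comp Primrec.unpair))))
      (Primrec.snd.comp Primrec.unpair))
      (Primrec.snd.comp (Primrec.unpair.comp (Primrec.fst.comp Primrec.unpair)))).to_comp
  exact ((red_right X g).comp ((Red.of_computable _ c1).comp
    ((Red.of_computable _ Computable.id).pair ((red_left X g).comp
      (Red.of_computable _ (Computable.fst.comp Computable.unpair)))))).of_eq
    (fun p => by simp [J, Y])

theorem red_col {X g : B} {n : ℕ} (h : X n = 1) : Red (col g (2 * n + 1)) (Y X g) :=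
  ((Red.refl (Y X g)).comp (Red.of_computable _
    (Primrec₂.natPair.comp (Primrec.const n) Primrec.id).to_comp)).of_eq
    (fun j => by simp [Y, col, h])

/-- Boxes. -/
def Box (u : B) (L : ℕ) : Set B :=
  {g | ∀ m j, m < 2 * L → j < L → g (Nat.pair m j) = u (Nat.pair m j)}

/-- Symmetric above `N`. -/
def Sy (N : ℕ) (u : B) : Prop :=
  ∀ k j b, N ≤ k → b ≤ 1 → u (Nat.pair (2 * k + b) j) = u (Nat.pair (2 * k) j)

theorem box_subset {u u' : B} {L L' : ℕ} (h : u' ∈ Box u L) (hL : L ≤ L') :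
    Box u' L' ⊆ Box u L := fun _ hy m j hm hj =>
  (hy m j (by omega) (by omega)).trans (h m j hm hj)

theorem step_pattern (Θ : Fn) {n N : ℕ} (hn : n < N) (π : Fin N → Bool) {u : B} {L : ℕ}
    (hL : N ≤ L) (hu : Sy N u) :
    ∃ u' L', L ≤ L' ∧ u' ∈ Box u L ∧ Sy N u' ∧ ∀ g ∈ Box u' L', ∀ X : B, (∀ k, X k ≤ 1) →
      X n = 0 → (fun k : Fin N => decide (X k = 0)) = π →
      ¬ Cmp Θ.1 (Y X g) (col g (2 * n + 1)) := by
  by_cases hc : ∃ g ∈ Box u L, ∃ X : B, (∀ k, X k ≤ 1) ∧ X n = 0 ∧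
      (fun k : Fin N => decide (X k = 0)) = π ∧ ∃ s v, (Θ.1 (pre (Y X g) s))[L]? = some v
  swap
  · refine ⟨u, L, le_rfl, fun _ _ _ _ => rfl, hu, fun g hg X h1 h2 h3 h4 => hc ?_⟩
    obtain ⟨s, hs⟩ := h4 L
    exact ⟨g, hg, X, h1, h2, h3, s, _, hs⟩
  obtain ⟨g, hg, X, h1, h2, h3, s, v, hs⟩ := hc
  refine ⟨fun p => if p.unpair.1 = 2 * n + 1 ∧ p.unpair.2 = L then v + 1 else
    if N ≤ p.unpair.1 / 2 then g (Nat.pair (2 * (p.unpair.1 / 2) + X (p.unpair.1 / 2)) p.unpair.2)
    else g p, max (L + 1) s, by omega, ?_, ?_, ?_⟩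
  · intro m j hm hj
    simp only [Nat.unpair_pair]
    rw [if_neg (by omega)]
    split_ifs with h
    · have := h1 (m / 2)
      rw [hg _ _ (by omega) hj, hu _ _ _ h this]
      have := hu (m / 2) j (m % 2) h (by omega)
      rw [← this]
      congr 2
      omega
    · exact hg m j hm hj
  · intro k j b hk hb
    simp only [Nat.unpair_pair]
    rw [if_neg (show ¬ (2 * k + b = 2 * n + 1 ∧ j = L) by omega),
      if_neg (show ¬ (2 * k = 2 * n + 1 ∧ j = L) by omega),
      show (2 * k + b) / 2 = k by omega, show 2 * k / 2 = k by omega, if_pos hk, if_pos hk]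
  · intro g' hg' X' h1' h2' h3' hcmp
    have agree : ∀ k < N, X' k = X k := by
      intro k hk
      have e := congrFun (h3'.trans h3.symm) ⟨k, hk⟩
      simp only [decide_eq_decide] at e
      have := h1 k
      have := h1' k
      omega
    have e : pre (Y X' g') s = pre (Y X g) s := by
      refine pre_congr fun p hp => ?_
      have a1 := Nat.unpair_left_le p
      have a2 := Nat.unpair_right_le p
      have a3 := h1' p.unpair.1
      simp only [Y]
      generalize p.unpair.1 = k at *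
      generalize p.unpair.2 = j at *
      rw [hg' _ _ (by omega) (by omega)]
      simp only [Nat.unpair_pair]
      have a4 : ¬ (2 * k + X' k = 2 * n + 1 ∧ j = L) := by
        rintro ⟨a5, -⟩
        have : k = n := by omega
        subst this
        omega
      rw [if_neg a4, show (2 * k + X' k) / 2 = k by omega]
      split_ifs with h
      · rfl
      · rw [agree k (by omega)]
    rw [← e] at hs
    have := hcmp.sound Θ.2.2 hs
    simp only [col] at this
    rw [hg' _ _ (by omega) (by omega)] at this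
    simp at this

theorem all_patterns (Θ : Fn) {n N : ℕ} (hn : n < N) {u : B} (hu : Sy N u)
    (S : Finset (Fin N → Bool)) :
    ∃ u' L', N ≤ L' ∧ u' ∈ Box u N ∧ Sy N u' ∧ ∀ g ∈ Box u' L', ∀ X : B, (∀ k, X k ≤ 1) →
      X n = 0 → (fun k : Fin N => decide (X k = 0)) ∈ S →
      ¬ Cmp Θ.1 (Y X g) (col g (2 * n + 1)) := by
  classical
  induction S using Finset.induction_on with
  | empty => exact ⟨u, N, le_rfl, fun _ _ _ _ => rfl, hu, fun _ _ _ _ _ h => by simp at h⟩
  | insert π S _ ih =>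
    obtain ⟨u1, L1, a1, a2, a3, a4⟩ := ih
    obtain ⟨u2, L2, b1, b2, b3, b4⟩ := step_pattern Θ hn π a1 a3
    refine ⟨u2, L2, by omega, box_subset a2 a1 b2, b3, fun g hg X h1 h2 h3 => ?_⟩
    rcases Finset.mem_insert.1 h3 with h | h
    · exact b4 g hg X h1 h2 h
    · exact a4 g (box_subset b2 b1 hg) X h1 h2 h

theorem exists_generic : ∃ g : B, ∀ X : B, (∀ k, X k ≤ 1) → ∀ n, X n = 0 →
    ¬ Red (col g (2 * n + 1)) (Y X g) := by
  have hm : IsMeagre (⋃ p : ℕ × Fn, {g | ∃ X : B, (∀ k, X k ≤ 1) ∧ X p.1 = 0 ∧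
      Cmp p.2.1 (Y X g) (col g (2 * p.1 + 1))}) := by
    refine isMeagre_iUnion fun ⟨n, Θ⟩ => meagre_of_avoid fun u L => ?_
    obtain ⟨u', L', a1, a2, -, a4⟩ := all_patterns Θ (n := n) (N := max L (n + 1)) (by omega)
      (u := fun p => if max L (n + 1) ≤ p.unpair.1 / 2 then 0 else u p) (by
        intro k j b hk hb
        simp only [Nat.unpair_pair]
        rw [if_pos (by omega), if_pos (by omega)]) Finset.univ
    refine ⟨u', fun p hp => ?_, (2 * L' + 1) ^ 2, ?_⟩
    · have b1 := Nat.unpair_left_le p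
      have b2 := Nat.unpair_right_le p
      have := a2 p.unpair.1 p.unpair.2 (by omega) (by omega)
      simp only [Nat.pair_unpair] at this
      rw [this, if_neg (by omega)]
    · rintro g hg ⟨X, h1, h2, h3⟩
      refine a4 g (fun m j hm hj => hg _ ?_) X h1 h2 (Finset.mem_univ _) h3
      refine (Nat.pair_lt_max_add_one_sq m j).trans_le (Nat.pow_le_pow_left (by omega) 2)
  obtain ⟨g, -, hg⟩ := exists_mem_not_mem (cyl_not_meagre (fun _ => 0) 0) hm
  refine ⟨g, fun X h1 n h2 h3 => hg ?_⟩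
  obtain ⟨Θ, h⟩ := h3.cmp
  exact mem_iUnion.2 ⟨(n, Θ), X, h1, h2, h⟩

theorem stepA {F G : B → B} (hG : ∀ f g, Red (G f) (G g) ↔ Red f g)
    (hGJ : ∀ a b, Red (G (J a b)) (J (G a) (G b))) (hGF : ∀ y, Red (G (F y)) y)
    (h01 : ∀ y n, F y n ≤ 1) :
    ∃ H : Fn → B → B, (∀ Θ, Measurable (H Θ)) ∧ ∀ y, ∃ Θ, F y = H Θ y := by
  classical
  obtain ⟨g, hg⟩ := exists_generic
  refine ⟨fun Θ y n => if ∃ Θ' : Fn, Cmp (fun σ => Θ'.1 (Θ.1 σ)) (J y (G g))
    (G (col g (2 * n + 1))) then 1 else 0, fun Θ => measurable_pi_lambda _ fun n => ?_,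
    fun y => ?_⟩
  · refine Measurable.ite ?_ measurable_const measurable_const
    simp only [ofPred_exists]
    exact MeasurableSet.iUnion fun Θ' =>
      measurable_cmp (measurable_J measurable_id measurable_const) measurable_const _
  · have h1 : Red (G (Y (F y) g)) (J y (G g)) :=
      (((hG _ _).2 (red_Y _ _)).trans (hGJ _ _)).trans
        ((hGF y).jl.pair (red_right _ _))
    obtain ⟨Θ, hΘ⟩ := h1.cmp
    refine ⟨Θ, funext fun n => ?_⟩
    have := h01 y n
    beta_reduce
    split_ifs with h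
    · obtain ⟨Θ', h⟩ := h
      have h2 := (hG _ _).1 (Cmp.red (Cmp.of_comp Θ.2.2 hΘ h))
      by_contra h3
      exact hg (F y) (h01 y) n (by omega) h2
    · by_contra h3
      obtain ⟨Θ', h4⟩ := ((hG _ _).2 (red_col (X := F y) (g := g) (n := n) (by omega))).cmp
      exact h ⟨Θ', Cmp.comp Θ.2.2 Θ'.2.2 hΘ h4⟩

end Vale.Agent.P327
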