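import Vale.Agent.P327.Vis
import Vale.Agent.P327.StepA
import Vale.Agent.P327.Defs

namespace Vale.Agent.P327

open Filter Set

theorem join_pres {F G : B → B} (hF : ∀ f g, Red (F f) (F g) ↔ Red f g)
    (hG : ∀ f g, Red (G f) (G g) ↔ Red f g) (hFG : ∀ y, Red y (F (G y)))
    (hGF : ∀ y, Red (G (F y)) y) (a b : B) : Red (G (J a b)) (J (G a) (G b)) :=
  ((hG _ _).2 (((hFG a).trans ((hF _ _).2 (red_left _ _))).pair
    ((hFG b).trans ((hF _ _).2 (red_right _ _))))).trans (hGF _)

theorem act_cl (x : B) (i : ℕ) : act x [(cl i).1] = act x [i] := by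
  funext t a j
  simp only [act, ev, List.foldr, cl, gen_min]

theorem act_mem_iff (x : B) (w : List ℕ) {τ a u : B} {L : ℕ} (h : ∀ j < L, τ j % 2 = 0) :
    act x w τ a ∈ Cyl u L ↔ a ∈ Cyl u L :=
  forall₂_congr fun j hj => by
    have := h j hj
    simp only [act]
    rw [if_neg (by omega)]

/-- The identities recorded by a colour. -/
def Idn (x : B) (H : Fn → B → B) (b t : B) (c : Fn × (Fin 3 → Fn × Fn × Fn)) : Set B :=
  {a | ∀ i : Fin 3, Cmp (c.2 i).2.1.1 (J (H c.1 a) b) (H (c.2 i).1 (act x [i.1] t a)) ∧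
    Cmp (c.2 i).2.2.1 (J (H (c.2 i).1 (act x [i.1] t a)) b) (H c.1 a)}

theorem measurable_Idn (x : B) {H : Fn → B → B} (hH : ∀ Θ, Measurable (H Θ)) (b t : B)
    (c : Fn × (Fin 3 → Fn × Fn × Fn)) : MeasurableSet (Idn x H b t c) := by
  simp only [Idn, ofPred_forall, ofPred_and]
  refine MeasurableSet.iInter fun i => MeasurableSet.inter ?_ ?_
  · exact measurable_cmp (measurable_J (hH _) measurable_const)
      ((hH _).comp (act_continuous x _ t).measurable) _
  · exact measurable_cmp (measurable_J ((hH _).comp (act_continuous x _ t).measurable)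
      measurable_const) (hH _) _

theorem main {F G : B → B} (hF : ∀ f g, Red (F f) (F g) ↔ Red f g)
    (hG : ∀ f g, Red (G f) (G g) ↔ Red f g)
    (hFG : ∀ y, Red y (F (G y)) ∧ Red (F (G y)) y) (hGF : ∀ y, Red y (G (F y)) ∧ Red (G (F y)) y)
    (h01 : ∀ y n, F y n ≤ 1) (x : B) (hx : ∀ n, x n ≤ 1) : Red (G x) x := by
  by_contra hz
  have hGJ := join_pres hF hG (fun y => (hFG y).1) (fun y => (hGF y).2)
  have hFJ := join_pres hG hF (fun y => (hGF y).1) (fun y => (hFG y).2)
  obtain ⟨H, hH, hcov⟩ := stepA hG hGJ (fun y => (hGF y).2) h01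
  have col1 : ∀ t a, ∃ c : Fn × (Fin 3 → Fn × Fn × Fn),
      F a = H c.1 a ∧ a ∈ Idn x H (F (J x t)) t c := by
    intro t a
    obtain ⟨α, hα⟩ := hcov a
    have : ∀ i : Fin 3, ∃ d : Fn × Fn × Fn,
        Cmp d.2.1.1 (J (H α a) (F (J x t))) (H d.1 (act x [i.1] t a)) ∧
        Cmp d.2.2.1 (J (H d.1 (act x [i.1] t a)) (F (J x t))) (H α a) := by
      intro i
      obtain ⟨γ, hγ⟩ := hcov (act x [i.1] t a)
      obtain ⟨θ, hθ⟩ := (((hF _ _).2 (red_act x i.1 t a)).trans (hFJ _ _)).cmp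
      have h2 := red_act x i.1 t (act x [i.1] t a)
      rw [act_act] at h2
      obtain ⟨θ', hθ'⟩ := (((hF _ _).2 h2).trans (hFJ _ _)).cmp
      refine ⟨(γ, θ, θ'), ?_, ?_⟩
      · simp only [← hα, ← hγ]; exact hθ
      · simp only [← hα, ← hγ]; exact hθ'
    choose d hd using this
    exact ⟨(α, d), hα, hd⟩
  have col2 : ∀ t, ∃ p : (Fn × (Fin 3 → Fn × Fn × Fn)) × List ℕ × List ℕ,
      ENM {a | F a = H p.1.1 a ∧ a ∈ Idn x H (F (J x t)) t p.1} (ofL p.2.1) p.2.1.length ∧
        pre t p.2.1.length = p.2.2 := by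
    intro t
    obtain ⟨c, hc⟩ := exists_not_meagre (cyl_not_meagre (fun _ => 0) 0)
      (fun c a => F a = H c.1 a ∧ a ∈ Idn x H (F (J x t)) t c) (fun a _ => col1 t a)
    obtain ⟨l, hl⟩ := localize (S := {a | F a = H c.1 a ∧ a ∈ Idn x H (F (J x t)) t c})
      (fun h => hc (mg_mono h fun a ha => ha.2))
    exact ⟨(c, l, pre t l.length), hl, rfl⟩
  obtain ⟨⟨c, l, ρ⟩, hT⟩ := exists_not_meagre (cyl_not_meagre (fun _ => 0) 0) _
    (fun t _ => col2 t)
  simp only at hT
  generalize ofL l = u at hT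
  generalize l.length = L at hT
  obtain ⟨t, ⟨-, ht1, ht2⟩, ht3⟩ := exists_mem_not_mem hT (meagre_cone hz)
  have hnc : ∀ u' ∈ Cyl u L, ∀ L' d, ¬ IsMeagre (Cyl u' L' \ {a | H c.1 a = d}) := by
    intro u' hu' L' d hm
    refine ht1 u' hu' L' (mg_mono (hm.union (meagre_of_countable (countable_red (G d))))
      fun a ha => ?_)
    by_cases h : H c.1 a = d
    · refine Or.inr ?_
      rw [← h, ← ha.1.1]
      exact (hGF a).1
    · exact Or.inl ⟨ha.2, h⟩
  have hbad : IsMeagre (⋃ p : {p : ℕ × List ℕ // ¬ x (p.1 / 2) = p.1 % 2 ∧ ofL p.2 ∈ Cyl u L},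
      {t' | ∀ U, IsMeagre (Cyl (ofL p.1.2) p.1.2.length \
        {a | H c.1 (act x (U ++ W p.1.1 ++ U.reverse) (t + t') a) = H c.1 a})}) :=
    isMeagre_iUnion fun p => bad_meagre (hH _) (W_nontrivial p.2.1) t _ _ (hnc _ p.2.2)
  obtain ⟨t', ⟨-, ht1', ht2'⟩, ht3'⟩ := exists_mem_not_mem hT ((meagre_cone ht3).union hbad)
  have heven : ∀ j < L, (t + t') j % 2 = 0 := by
    intro j hj
    have : t j = t' j := by rw [← pre_getD t hj, ← pre_getD t' hj, ht2, ht2']
    simp only [Pi.add_apply]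
    omega
  have m1 := ht1.comeagre (measurable_Idn x hH (F (J x t)) t c) (fun a ha => ha.2)
  have m2 := ht1'.comeagre (measurable_Idn x hH (F (J x t')) t' c) (fun a ha => ha.2)
  have m3 : IsMeagre (⋃ k : {k : ℕ // ¬ x (k / 2) = k % 2},
      {a | ∀ U, H c.1 (act x (U ++ W k.1 ++ U.reverse) (t + t') a) = H c.1 a} ∩ Cyl u L) := by
    refine isMeagre_iUnion fun k => ?_
    by_contra hc
    obtain ⟨u', h1, L', h2, h3⟩ := baire_prop (by
      simp only [ofPred_forall]
      exact MeasurableSet.iInter fun U => measurableSet_eq_fun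
        ((hH _).comp (act_continuous x _ _).measurable) (hH _)) hc
    refine ht3' (Or.inr (mem_iUnion.2 ⟨⟨(k.1, pre u' L'), k.2, fun j hj => ?_⟩, fun U => ?_⟩))
    · rw [← h1 j hj]
      exact pre_getD u' (by omega)
    · simp only [cyl_ofL]
      exact mg_mono h3 fun a ha => ⟨ha.1, fun h => ha.2 (h U)⟩
  have m4 : IsMeagre {a | Red (G x) (J (J (J x t) t') a)} :=
    meagre_cone fun h => ht3' (Or.inl h)
  obtain ⟨a, ⟨⟨ha1, -⟩, ha2⟩, ha3⟩ := exists_mem_not_mem (ht1 u (self_mem_cyl _ _) L)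
    ((m3.union m4).union (isMeagre_iUnion fun w : List ℕ => act_meagre x w (t + t') (m1.union m2)))
  have orb : ∀ w, act x w (t + t') a ∈ Idn x H (F (J x t)) t c ∧
      act x w (t + t') a ∈ Idn x H (F (J x t')) t' c := by
    intro w
    have h1 := (act_mem_iff x w heven).2 ha2
    constructor
    · by_contra h
      exact ha3 (Or.inr (mem_iUnion.2 ⟨w, Or.inl ⟨h1, h⟩⟩))
    · by_contra h
      exact ha3 (Or.inr (mem_iUnion.2 ⟨w, Or.inr ⟨h1, h⟩⟩))
  have dec := decode (b := F (J x t)) (b' := F (J x t')) hx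
    (fun w => H c.1 (act x w (t + t') a))
    (fun i w => H (c.2 (cl i)).1 (act x [i] t (act x w (t + t') a)))
    (fun i => (c.2 i).2.1) (fun i => (c.2 i).2.2)
    (fun i w => by
      have := ((orb w).1 (cl i)).1
      rwa [act_cl] at this)
    (fun i w => by
      have := ((orb (i :: w)).2 (cl i)).2
      rw [act_cl, show i :: w = [i] ++ w from rfl, act_append, act_xor] at this
      rw [show i :: w = [i] ++ w from rfl, act_append]
      exact this)
    (fun k U hk => by
      rw [act_nil, act_of_trivial fun v => by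
        rw [ev_append, ev_append, W_trivial hk, ev_rev']])
    (fun k hk => by
      by_contra h
      push Not at h
      refine ha3 (Or.inl (Or.inl (mem_iUnion.2 ⟨⟨k, hk⟩, fun U => ?_, ha2⟩)))
      have := h U
      rwa [act_nil] at this)
  simp only [act_nil, ← ha1] at dec
  refine ha3 (Or.inl (Or.inr (((hG _ _).2 (dec.trans ?_)).trans (hGF _).2)))
  exact (((hF _ _).2 (red_right _ _)).pair ((hF _ _).2 (red_left _ _).jl)).pair
    ((hF _ _).2 ((red_left _ _).jl.pair (red_right _ _)).jl)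

open Classical in
/-- Characteristic function as a total function. -/
noncomputable def ch (A : Set ℕ) : B := fun n => if n ∈ A then 1 else 0

theorem tle_iff (A A' : Set ℕ) : TLE A A' ↔ Red (ch A) (ch A') := RecursiveIn.iff_nat

/-- Graph. -/
def gr (f : B) : Set ℕ := {p | f p.unpair.1 = p.unpair.2}

theorem red_gr (f : B) : Red (ch (gr f)) f := by
  have c1 : Computable (fun q : ℕ => if q.unpair.1 = q.unpair.2 then 1 else 0) :=
    (Primrec.ite (Primrec.eq.comp (Primrec.fst.comp Primrec.unpair)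
      (Primrec.snd.comp Primrec.unpair)) (Primrec.const 1) (Primrec.const 0)).to_comp
  exact ((Red.of_computable _ c1).comp (((Red.refl f).comp (Red.of_computable _
    (Computable.fst.comp Computable.unpair))).pair (Red.of_computable _
    (Computable.snd.comp Computable.unpair)))).of_eq fun n => by
      simp only [J, ch, gr, Nat.unpair_pair, mem_ofPred_eq]
      congr

theorem red_gr' (f : B) : Red f (ch (gr f)) := by
  have c1 : Computable (fun q : ℕ => 1 - q) :=
    (Primrec.nat_sub.comp (Primrec.const 1) Primrec.id).to_comp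
  have ex : ∀ a, ∃ n, (fun p => 1 - ch (gr f) p) (Nat.pair a n) = 0 :=
    fun a => ⟨f a, by simp [ch, gr]⟩
  refine (((Red.of_computable _ c1).comp (Red.refl (ch (gr f)))).rfind ex).of_eq fun a => ?_
  have := Nat.find_spec (ex a)
  generalize Nat.find (ex a) = v at this
  by_contra h
  simp [ch, gr, Ne.symm h] at this

theorem dle_mk (A A' : Set ℕ) : DLE (Quotient.mk TEq A) (Quotient.mk TEq A') ↔ TLE A A' := by
  constructor
  · rintro ⟨C, C', h1, h2, h3⟩
    exact TuringReducible.trans (Quotient.exact h1).2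
      (TuringReducible.trans h3 (Quotient.exact h2).1)
  · intro h
    exact ⟨A, A', rfl, rfl, h⟩

/-- Lift of a map on degrees. -/
noncomputable def lift (π : Degree → Degree) (f : B) : B :=
  ch (Quotient.out (π (Quotient.mk TEq (gr f))))

theorem mk_gr_ch (A : Set ℕ) : Quotient.mk TEq (gr (ch A)) = Quotient.mk TEq A :=
  Quotient.sound ⟨(tle_iff _ _).2 (red_gr _), (tle_iff _ _).2 (red_gr' _)⟩

theorem lift_red {π : Degree → Degree} (h : ∀ a b, DLE a b ↔ DLE (π a) (π b)) (f g : B) :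
    Red (lift π f) (lift π g) ↔ Red f g := by
  unfold lift
  rw [← tle_iff, ← dle_mk, Quotient.out_eq, Quotient.out_eq, ← h, dle_mk, tle_iff]
  exact ⟨fun h => (red_gr' f).trans (h.trans (red_gr g)),
    fun h => (red_gr f).trans (h.trans (red_gr' g))⟩

theorem lift_lift {π π' : Degree → Degree} (h : ∀ a, π (π' a) = a) (y : B) :
    Red y (lift π (lift π' y)) ∧ Red (lift π (lift π' y)) y := by
  have : lift π (lift π' y) = ch (Quotient.out (Quotient.mk TEq (gr y))) := by
    unfold lift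
    rw [mk_gr_ch, Quotient.out_eq, h]
  rw [this]
  have e := Quotient.exact (Quotient.out_eq (Quotient.mk TEq (gr y)))
  exact ⟨(red_gr' y).trans ((tle_iff _ _).1 e.2), ((tle_iff _ _).1 e.1).trans (red_gr y)⟩

theorem ch_le (A : Set ℕ) (n : ℕ) : ch A n ≤ 1 := by
  unfold ch; split_ifs <;> omega

theorem half {π π' : Degree → Degree} (h : ∀ a b, DLE a b ↔ DLE (π a) (π b))
    (h1 : ∀ a, π (π' a) = a) (h2 : ∀ a, π' (π a) = a) (a : Degree) : DLE (π' a) a := by
  have h' : ∀ a b, DLE a b ↔ DLE (π' a) (π' b) := fun a b => by rw [h (π' a), h1, h1]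
  obtain ⟨A, rfl⟩ := Quotient.exists_rep a
  have := main (lift_red h) (lift_red h') (lift_lift h1) (lift_lift h2) (fun _ _ => ch_le _ _)
    (ch A) (ch_le A)
  unfold lift at this
  rw [← tle_iff, ← dle_mk, Quotient.out_eq, mk_gr_ch] at this
  exact this

theorem dle_antisymm {a b : Degree} (h : DLE a b) (h' : DLE b a) : a = b := by
  obtain ⟨A, rfl⟩ := Quotient.exists_rep a
  obtain ⟨A', rfl⟩ := Quotient.exists_rep b
  exact Quotient.sound ⟨(dle_mk _ _).1 h, (dle_mk _ _).1 h'⟩

theorem rigid (π : Degree → Degree) (hb : Function.Bijective π)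
    (h : ∀ a b, DLE a b ↔ DLE (π a) (π b)) (a : Degree) : π a = a := by
  obtain ⟨π', h2, h1⟩ := Function.bijective_iff_has_inverse.1 hb
  have h' : ∀ a b, DLE a b ↔ DLE (π' a) (π' b) := fun a b => by rw [h (π' a), h1, h1]
  have a1 := half h' h2 h1 a
  have a2 := half h h1 h2 (π a)
  rw [h2] at a2
  exact dle_antisymm a1 a2

end Vale.Agent.P327
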