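import Vale.Agent.P327.Grp

namespace Vale.Agent.P327

open Filter Set

/-- Generic value on a cylinder. -/
def GV (α : B → B) (i v : ℕ) (u : B) (L : ℕ) : Prop := IsMeagre (Cyl u L \ {a | α a i = v})

theorem act_mem_cyl (x : B) (h : List ℕ) {τ τ' a u : B} {L : ℕ} (hτ : τ ∈ Cyl τ' L) :
    act x h τ a ∈ Cyl (act x h τ' u) L ↔ a ∈ Cyl u L := by
  refine forall₂_congr fun j hj => ?_
  simp only [act, hτ j hj]
  split_ifs
  · refine ⟨fun e => ?_, fun e => by rw [e]⟩
    rw [← ev_rev x h (a j), e, ev_rev]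
  · rfl

theorem gv_transfer {α : B → B} {x : B} {h : List ℕ} {τ τ' u u' : B} {L L' : ℕ}
    (hτ : τ ∈ Cyl τ' L') (hu : u' ∈ Cyl u L) (hL : L ≤ L')
    (hb : IsMeagre (Cyl u L \ {a | α (act x h τ a) = α a})) (i v : ℕ) :
    GV α i v u' L' ↔ GV α i v (act x h τ' u') L' := by
  constructor
  · intro hg
    refine mg_mono (act_meagre x h.reverse τ (IsMeagre.union hg hb)) fun b hb' => ?_
    have h1 : act x h.reverse τ b ∈ Cyl u' L' := by
      rw [← act_mem_cyl x h hτ, act_rev']
      exact hb'.1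
    by_cases h2 : α (act x h τ (act x h.reverse τ b)) = α (act x h.reverse τ b)
    · refine Or.inl ⟨h1, fun h3 => hb'.2 ?_⟩
      rw [act_rev'] at h2
      simp only [mem_ofPred_eq] at h3 ⊢
      rw [h2, h3]
    · exact Or.inr ⟨cyl_subset hu hL h1, h2⟩
  · intro hg
    refine mg_mono (IsMeagre.union (act_meagre x h τ hg) hb) fun a ha => ?_
    by_cases h2 : α (act x h τ a) = α a
    · refine Or.inl ⟨(act_mem_cyl x h hτ).2 ha.1, fun h3 => ha.2 ?_⟩
      simp only [mem_ofPred_eq] at h3 ⊢
      rw [← h2, h3]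
    · exact Or.inr ⟨cyl_subset hu hL ha.1, h2⟩

theorem bad_meagre {α : B → B} (hα : Measurable α) {x : B} {w : List ℕ} (hw : ev x w 2 = 0)
    (t u : B) (L : ℕ)
    (hnc : ∀ L' c, ¬ IsMeagre (Cyl u L' \ {a | α a = c})) :
    IsMeagre {t' | ∀ U, IsMeagre
      (Cyl u L \ {a | α (act x (U ++ w ++ U.reverse) (t + t') a) = α a})} := by
  refine meagre_of_avoid fun ρ L1 => ?_
  by_contra hc
  push Not at hc
  obtain ⟨N, hN1, hN2⟩ : ∃ N, L ≤ N ∧ L1 ≤ N := ⟨max L L1, by omega, by omega⟩
  have key1 : ∀ ρ' ∈ Cyl ρ L1, ∀ U, ∀ u' ∈ Cyl u L, ∀ L', L ≤ L' → ∀ i v,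
      GV α i v u' L' ↔ GV α i v (act x (U ++ w ++ U.reverse) (t + ρ') u') L' := by
    intro ρ' h1 U u' h2 L' h3 i v
    obtain ⟨t', h4, h5⟩ := hc ρ' h1 L'
    exact gv_transfer (τ := t + t') (fun j hj => by simp [h4 j hj]) h2 h3 (h5 U) i v
  have key2 : ∀ j, N ≤ j → ∀ u' ∈ Cyl u L, ∀ L', L ≤ L' → ∀ i v m,
      GV α i v u' L' ↔ GV α i v (Function.update u' j m) L' := by
    intro j hj u' h2 L' h3 i v m
    have hup : ∀ m, Function.update u' j m ∈ Cyl u L := fun m k hk => by
      rw [Function.update_of_ne (by omega), h2 k hk]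
    have := connect hw (R := fun m => GV α i v (Function.update u' j m) L') (by
      intro U m
      rw [key1 (fun k => if k < N then ρ k else if k = j then t k + 1 else t k)
        (fun k hk => by simp [show k < N by omega]) U _ (hup m) L' h3,
        key1 (fun k => if k < N then ρ k else t k)
        (fun k hk => by simp [show k < N by omega]) U _ (hup _) L' h3]
      congr! 1
      funext k
      simp only [act, Pi.add_apply]
      by_cases hk : k = j
      · subst hk
        simp only [Function.update_self, if_neg (show ¬ k < N by omega), if_true]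
        rw [if_pos (by omega), if_neg (by omega)]
      · simp only [Function.update_of_ne hk, if_neg hk]) (u' j) m
    simpa using this
  have key3 : ∀ u' ∈ Cyl u N, ∀ u'' ∈ Cyl u N, ∀ L', L ≤ L' → ∀ i v,
      GV α i v u' L' → GV α i v u'' L' := by
    intro u' h1 u'' h2 L' h3 i v h4
    have : ∀ k, GV α i v (fun j => if j < k then u'' j else u' j) L' := by
      intro k
      induction k with
      | zero => simpa using h4
      | succ k ih =>
        rcases Nat.lt_or_ge k N with hk | hk
        · convert ih using 2 with j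
          by_cases hj : j = k
          · subst hj
            simp [h1 j hk, h2 j hk]
          · simp only [show j < k + 1 ↔ j < k by omega]
        · have := (key2 k hk _ (fun j hj => by
            split_ifs
            · exact h2 j (by omega)
            · exact h1 j (by omega)) L' h3 i v (u'' k)).1 ih
          convert this using 2 with j
          by_cases hj : j = k
          · subst hj
            simp
          · simp only [show j < k + 1 ↔ j < k by omega, Function.update_of_ne hj]
    have h5 := this L'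
    unfold GV at h5 ⊢
    convert h5 using 2
    ext y
    exact forall₂_congr fun j hj => by simp [hj]
  have key4 : ∀ i, ∃ v, GV α i v u N := by
    intro i
    obtain ⟨v, hv⟩ := exists_not_meagre (cyl_not_meagre u N) (fun v a => α a i = v)
      fun a _ => ⟨_, rfl⟩
    obtain ⟨u', h1, L', h2, h3⟩ := baire_prop (M := {a | α a i = v}) (u := u) (L := N)
      (((measurable_pi_apply i).comp hα) (measurableSet_singleton v))
      (fun h => hv (mg_mono h fun a ha => ⟨ha.2, ha.1⟩))
    refine ⟨v, mg_mono (isMeagre_iUnion fun l : {l : List ℕ // ofL l ∈ Cyl u N} =>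
      key3 u' h1 _ l.2 L' (by omega) i v h3) fun a ha => ?_⟩
    refine mem_iUnion.2 ⟨⟨pre a L', fun j hj => ?_⟩, fun j hj => ?_, ha.2⟩
    · rw [← ha.1 j hj]
      exact pre_getD a (by omega)
    · exact (pre_getD a hj).symm
  choose c hc using key4
  refine hnc N c (mg_mono (isMeagre_iUnion hc) fun a ha => ?_)
  by_contra h
  refine ha.2 (funext fun i => ?_)
  by_contra h'
  exact h (mem_iUnion.2 ⟨i, ha.1, h'⟩)

/-- Letters. -/
def cl (i : ℕ) : Fin 3 := ⟨min i 2, by omega⟩

theorem sel_primrec (θ : Fin 3 → Fn) : Primrec₂ (fun (i : ℕ) (l : List ℕ) => (θ (cl i)).1 l) := by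
  have : Primrec fun p : ℕ × List ℕ => if p.1 = 0 then (θ 0).1 p.2 else
      if p.1 = 1 then (θ 1).1 p.2 else (θ 2).1 p.2 :=
    Primrec.ite (Primrec.eq.comp Primrec.fst (Primrec.const 0)) ((θ 0).2.1.comp Primrec.snd)
      (Primrec.ite (Primrec.eq.comp Primrec.fst (Primrec.const 1)) ((θ 1).2.1.comp Primrec.snd)
        ((θ 2).2.1.comp Primrec.snd))
  refine this.of_eq fun p => ?_
  split_ifs with h1 h2
  · rw [h1]; rfl
  · rw [h2]; rfl
  · beta_reduce
    rw [show cl p.1 = 2 from Fin.ext (by simp only [cl]; omega)]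

/-- Uniform approximation along a word. -/
def apw (θ θ' : Fin 3 → Fn) (w σ : List ℕ) : List ℕ :=
  w.foldr (fun i l => (θ' (cl i)).1 (zipJ ((θ (cl i)).1
    (zipJ l ((σ.map fun n => n.unpair.1).map fun n => n.unpair.2))) (σ.map fun n => n.unpair.2)))
    ((σ.map fun n => n.unpair.1).map fun n => n.unpair.1)

theorem foldr_primrec {p q : ℕ → List ℕ → List ℕ} {z : List ℕ → List ℕ → List ℕ}
    {l1 l2 l3 : List ℕ → List ℕ} (hp : Primrec₂ p) (hq : Primrec₂ q) (hz : Primrec₂ z)
    (h1 : Primrec l1) (h2 : Primrec l2) (h3 : Primrec l3) :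
    Primrec₂ fun (w σ : List ℕ) =>
      w.foldr (fun i l => p i (z (q i (z l (l2 σ))) (l3 σ))) (l1 σ) := by
  have a1 : Primrec fun r : (List ℕ × List ℕ) × ℕ × List ℕ => z r.2.2 (l2 r.1.2) :=
    hz.comp (Primrec.snd.comp Primrec.snd) (h2.comp (Primrec.snd.comp Primrec.fst))
  have a2 : Primrec fun r : (List ℕ × List ℕ) × ℕ × List ℕ => q r.2.1 (z r.2.2 (l2 r.1.2)) :=
    hq.comp (Primrec.fst.comp Primrec.snd) a1
  have a3 : Primrec fun r : (List ℕ × List ℕ) × ℕ × List ℕ =>
      z (q r.2.1 (z r.2.2 (l2 r.1.2))) (l3 r.1.2) :=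
    hz.comp a2 (h3.comp (Primrec.snd.comp Primrec.fst))
  have a4 : Primrec fun r : (List ℕ × List ℕ) × ℕ × List ℕ =>
      p r.2.1 (z (q r.2.1 (z r.2.2 (l2 r.1.2))) (l3 r.1.2)) :=
    hp.comp (Primrec.fst.comp Primrec.snd) a3
  exact Primrec.list_foldr (f := fun r : List ℕ × List ℕ => r.1)
    (g := fun r : List ℕ × List ℕ => l1 r.2)
    (h := fun (r : List ℕ × List ℕ) (s : ℕ × List ℕ) =>
      p s.1 (z (q s.1 (z s.2 (l2 r.2))) (l3 r.2))) Primrec.fst (h1.comp Primrec.snd) a4

theorem apw_primrec (θ θ' : Fin 3 → Fn) : Primrec₂ (apw θ θ') := by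
  have m1 : Primrec fun σ : List ℕ => σ.map fun n => n.unpair.1 :=
    Primrec.list_map Primrec.id (Primrec.fst.comp (Primrec.unpair.comp Primrec.snd)).to₂
  have m2 : Primrec fun σ : List ℕ => σ.map fun n => n.unpair.2 :=
    Primrec.list_map Primrec.id (Primrec.snd.comp (Primrec.unpair.comp Primrec.snd)).to₂
  exact foldr_primrec (sel_primrec θ') (sel_primrec θ) zipJ_primrec (m1.comp m1) (m2.comp m1) m2

theorem decode {x b b' : B} (hx : ∀ n, x n ≤ 1) (f : List ℕ → B) (m : ℕ → List ℕ → B)
    (θ θ' : Fin 3 → Fn)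
    (h1 : ∀ i w, Cmp (θ (cl i)).1 (J (f w) b) (m i w))
    (h2 : ∀ i w, Cmp (θ' (cl i)).1 (J (m i w) b') (f (i :: w)))
    (triv : ∀ k U, x (k / 2) = k % 2 → f (U ++ W k ++ U.reverse) = f [])
    (vis : ∀ k, ¬ x (k / 2) = k % 2 → ∃ U, f (U ++ W k ++ U.reverse) ≠ f []) :
    Red x (J (J (f []) b) b') := by
  have hA : ∀ w, Apx (fun s => apw θ θ' w (pre (J (J (f []) b) b') s)) (f w) := by
    intro w
    induction w with
    | nil => exact (apx_pre _).left.left
    | cons i w ih =>
      exact Apx.app (θ' (cl i)).2.2 (h2 i w) ((Apx.app (θ (cl i)).2.2 (h1 i w)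
        (ih.zip (apx_pre _).left.right)).zip (apx_pre _).right)
  refine red_search (θ := fun σ n =>
    ((apw θ θ' (Denumerable.ofNat (List ℕ) σ.length.unpair.1.unpair.2.unpair.1 ++
      W (2 * n + σ.length.unpair.1.unpair.1 % 2) ++
      (Denumerable.ofNat (List ℕ) σ.length.unpair.1.unpair.2.unpair.1).reverse) σ)[
        σ.length.unpair.1.unpair.2.unpair.2]?).bind fun v =>
      ((apw θ θ' [] σ)[σ.length.unpair.1.unpair.2.unpair.2]?).bind fun v' =>
        if v = v' then none else some (1 - σ.length.unpair.1.unpair.1 % 2)) ?_ ?_ ?_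
  · apply Primrec₂.to_comp
    apply Primrec₂.mk
    have q : Primrec fun p : List ℕ × ℕ => p.1.length.unpair.1 :=
      Primrec.fst.comp (Primrec.unpair.comp (Primrec.list_length.comp Primrec.fst))
    have bit : Primrec fun p : List ℕ × ℕ => p.1.length.unpair.1.unpair.1 % 2 :=
      Primrec.nat_mod.comp (Primrec.fst.comp (Primrec.unpair.comp q)) (Primrec.const 2)
    have U : Primrec fun p : List ℕ × ℕ =>
        Denumerable.ofNat (List ℕ) p.1.length.unpair.1.unpair.2.unpair.1 :=
      (Primrec.ofNat (List ℕ)).comp (Primrec.fst.comp (Primrec.unpair.comp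
        (Primrec.snd.comp (Primrec.unpair.comp q))))
    have j : Primrec fun p : List ℕ × ℕ => p.1.length.unpair.1.unpair.2.unpair.2 :=
      Primrec.snd.comp (Primrec.unpair.comp (Primrec.snd.comp (Primrec.unpair.comp q)))
    refine Primrec.option_bind (Primrec.list_getElem?.comp ((apw_primrec θ θ').comp
      (Primrec.list_append.comp (Primrec.list_append.comp U (W_primrec.comp
        (Primrec.nat_add.comp (Primrec.nat_double.comp Primrec.snd) bit)))
        (Primrec.list_reverse.comp U)) Primrec.fst) j) ?_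
    apply Primrec₂.mk
    refine Primrec.option_bind ((Primrec.list_getElem?.comp ((apw_primrec θ θ').comp
      (Primrec.const []) Primrec.fst) j).comp Primrec.fst) ?_
    apply Primrec₂.mk
    exact Primrec.ite (Primrec.eq.comp (Primrec.snd.comp Primrec.fst) Primrec.snd)
      (Primrec.const none) (Primrec.option_some.comp (Primrec.nat_sub.comp (Primrec.const 1)
        (bit.comp (Primrec.fst.comp Primrec.fst))))
  · intro s n v e
    simp only [pre_length, Option.bind_eq_some_iff] at e
    obtain ⟨v1, e1, v2, e2, e3⟩ := e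
    have a1 := (hA _).sound e1
    have a2 := (hA _).sound e2
    split_ifs at e3 with h
    have a3 := Option.some.inj e3
    have a4 := hx n
    generalize s.unpair.1.unpair.1 = r at *
    by_contra h3
    rw [triv _ _ (by rw [show (2 * n + r % 2) / 2 = n by omega]; omega)] at a1
    exact h (a1.trans a2.symm)
  · intro n
    have a4 := hx n
    obtain ⟨U, hU⟩ := vis (2 * n + (1 - x n))
      (by rw [show (2 * n + (1 - x n)) / 2 = n by omega]; omega)
    obtain ⟨j, hj⟩ := Function.ne_iff.1 hU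
    obtain ⟨s0, hs0⟩ := eventually_atTop.1 (((hA (U ++ W (2 * n + (1 - x n)) ++ U.reverse)).ev j).and
      ((hA []).ev j))
    obtain ⟨e1, e2⟩ := hs0 (Nat.pair (Nat.pair (1 - x n) (Nat.pair (Encodable.encode U) j)) s0)
      (Nat.right_le_pair _ _)
    refine ⟨Nat.pair (Nat.pair (1 - x n) (Nat.pair (Encodable.encode U) j)) s0,
      1 - (1 - x n) % 2, ?_⟩
    simp only [pre_length, Nat.unpair_pair, Denumerable.ofNat_encode]
    rw [show 2 * n + (1 - x n) % 2 = 2 * n + (1 - x n) by omega, e1, e2]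
    simp only [Option.bind_some, if_neg hj]

end Vale.Agent.P327
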